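import Mathlib.Data.Finset.Image
import Mathlib.Algebra.Group.Units.Basic
import Mathlib.Data.Int.Basic
import Mathlib.Tactic.Ring
import Mathlib.Tactic.NormNum
import Mathlib.Tactic.IntervalCases

/-!
Definitions for the Snaky achievement game on the plane.
-/

namespace Vale.Agent.Lib.P062.Thr

/-- A cell of the square grid, indexed by its lower-left corner. -/
abbrev Cell := ℤ × ℤ

/-- The hexomino Snaky. -/
def snaky : Finset Cell := {(0, 0), (1, 0), (2, 0), (3, 0), (3, 1), (4, 1)}

/-- The action on a cell of a signed permutation matrix: the diagonal matrix with
entries `sx, sy` when `swap` is false, the antidiagonal matrix with entries `sx, sy` when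
`swap` is true.  These are exactly the eight signed permutation matrices of size two. -/
def signedPerm (swap : Bool) (sx sy : ℤˣ) (c : Cell) : Cell :=
  if swap then ((sx : ℤ) * c.2, (sy : ℤ) * c.1) else ((sx : ℤ) * c.1, (sy : ℤ) * c.2)

/-- `C` is an allowed copy of Snaky: `C = t + R(S)` with `R` a signed permutation matrix. -/
def IsCopy (C : Finset Cell) : Prop :=
  ∃ (t : Cell) (swap : Bool) (sx sy : ℤˣ),
    C = snaky.image (fun c => t + signedPerm swap sx sy c)

/-- `MakerWins M B`: it is Maker's turn, Maker owns the cells `M`, Breaker owns the cells `B`,
and Maker can force a win after finitely many turns against every legal play of Breaker.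
Either Maker already owns all cells of an allowed copy, or Maker can claim an unclaimed
cell `m` such that whatever unclaimed cell `b` Breaker claims next, Maker can still force a win. -/
inductive MakerWins : Finset Cell → Finset Cell → Prop
  | won {M B C : Finset Cell} (hC : IsCopy C) (h : C ⊆ M) : MakerWins M B
  | move {M B : Finset Cell} (m : Cell) (hmM : m ∉ M) (hmB : m ∉ B)
      (h : ∀ b : Cell, b ∉ insert m M → b ∉ B → MakerWins (insert m M) (insert b B)) :
      MakerWins M B

end Vale.Agent.Lib.P062.Thr
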