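import Mathlib.Algebra.Order.BigOperators.Group.Finset
import Vale.Agent.Lib.P062.Thr.Defs
import Vale.Agent.Lib.P062.Defs

/-!
From the inductive forced win to an explicit winning strategy on the infinite board.
-/

namespace Vale.Agent.Lib.P062.Thr

/-- The cell claimed by Maker on turn `n` under the strategy `σ`. -/
abbrev cellAt (σ : List Cell → Cell) (b : ℕ → Cell) (n : ℕ) : Cell :=
  σ ((List.range n).map b)

/-- Breaker's claim on turn `k` is legal in the game started from `M`, `B`. -/
def LegalB (M B : Finset Cell) (σ : List Cell → Cell) (b : ℕ → Cell) (k : ℕ) : Prop :=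
  b k ∉ M ∧ b k ∉ B ∧ (∀ j ≤ k, b k ≠ cellAt σ b j) ∧ (∀ j < k, b k ≠ b j)

/-- Maker's claim on turn `n` is legal in the game started from `M`, `B`. -/
def LegalM (M B : Finset Cell) (σ : List Cell → Cell) (b : ℕ → Cell) (n : ℕ) : Prop :=
  cellAt σ b n ∉ M ∧ cellAt σ b n ∉ B ∧ (∀ k < n, cellAt σ b n ≠ cellAt σ b k) ∧
    (∀ k < n, cellAt σ b n ≠ b k)

/-- A strategy that wins from the position `M`, `B`. -/
def StratWins (M B : Finset Cell) (σ : List Cell → Cell) : Prop :=
  (∀ (b : ℕ → Cell) (n : ℕ), (∀ k < n, LegalB M B σ b k) → LegalM M B σ b n) ∧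
  (∀ b : ℕ → Cell, (∀ n, LegalB M B σ b n) →
    ∃ n, ∃ C : Finset Cell, IsCopy C ∧ ∀ c ∈ C, c ∈ M ∨ ∃ k ≤ n, c = cellAt σ b k)

/-- A coordinate bound for the fresh moves. -/
def freshBound (S : Finset Cell) (l : List Cell) : ℕ :=
  (∑ x ∈ S, (x.1.natAbs + 1)) + (l.map (fun x => x.1.natAbs + 1)).sum + 1

/-- A strategy claiming far away cells. -/
def freshStrat (S : Finset Cell) (l : List Cell) : Cell :=
  ((freshBound S l : ℕ), 0)

theorem le_list_sum (f : Cell → ℕ) {l : List Cell} {x : Cell} (hx : x ∈ l) :
    f x ≤ (l.map f).sum := by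
  induction l with
  | nil => simp at hx
  | cons a l ih =>
    rw [List.map_cons, List.sum_cons]
    rcases List.mem_cons.mp hx with rfl | h
    · omega
    · have := ih h
      omega

theorem natAbs_lt_of_mem_S {S : Finset Cell} {x : Cell} (hx : x ∈ S) (l : List Cell) :
    x.1.natAbs < freshBound S l := by
  have h : x.1.natAbs + 1 ≤ ∑ y ∈ S, (y.1.natAbs + 1) :=
    Finset.single_le_sum (f := fun y : Cell => y.1.natAbs + 1) (fun _ _ => Nat.zero_le _) hx
  unfold freshBound
  omega

theorem natAbs_lt_of_mem_l (S : Finset Cell) {l : List Cell} {x : Cell} (hx : x ∈ l) :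
    x.1.natAbs < freshBound S l := by
  have h : x.1.natAbs + 1 ≤ (l.map (fun x => x.1.natAbs + 1)).sum :=
    le_list_sum (fun x : Cell => x.1.natAbs + 1) hx
  unfold freshBound
  omega

theorem cell_ne_of_lt {S : Finset Cell} {l : List Cell} {x : Cell}
    (h : x.1.natAbs < freshBound S l) : freshStrat S l ≠ x := by
  intro he
  have : ((freshBound S l : ℕ) : ℤ) = x.1 := by
    have := congrArg Prod.fst he
    simpa [freshStrat] using this
  have h2 : x.1.natAbs = freshBound S l := by
    rw [← this]; simp
  omega

theorem freshBound_mono (S : Finset Cell) (b : ℕ → Cell) {k n : ℕ} (h : k < n) :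
    freshBound S ((List.range k).map b) < freshBound S ((List.range n).map b) := by
  induction n with
  | zero => omega
  | succ n ih =>
    have e : freshBound S ((List.range (n + 1)).map b) =
        freshBound S ((List.range n).map b) + ((b n).1.natAbs + 1) := by
      simp only [freshBound, List.range_succ, List.map_append, List.map_cons, List.map_nil,
        List.sum_append, List.sum_cons, List.sum_nil]
      omega
    rcases Nat.lt_succ_iff_lt_or_eq.mp h with h' | h'
    · have := ih h'
      omega
    · subst h'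
      omega

theorem strat_of_won {M B C : Finset Cell} (hC : IsCopy C) (h : C ⊆ M) :
    ∃ σ, StratWins M B σ := by
  refine ⟨freshStrat (M ∪ B), ?_, ?_⟩
  · intro b n _
    refine ⟨?_, ?_, ?_, ?_⟩
    · intro hm
      exact cell_ne_of_lt (natAbs_lt_of_mem_S (Finset.mem_union_left _ hm) _) rfl
    · intro hm
      exact cell_ne_of_lt (natAbs_lt_of_mem_S (Finset.mem_union_right _ hm) _) rfl
    · intro k hk he
      have h1 := freshBound_mono (M ∪ B) b hk
      have : ((freshBound (M ∪ B) ((List.range n).map b) : ℕ) : ℤ) =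
          (freshBound (M ∪ B) ((List.range k).map b) : ℕ) := by
        have := congrArg Prod.fst he
        simpa [freshStrat] using this
      have h2 : freshBound (M ∪ B) ((List.range n).map b) =
          freshBound (M ∪ B) ((List.range k).map b) := by exact_mod_cast this
      omega
    · intro k hk
      apply cell_ne_of_lt
      apply natAbs_lt_of_mem_l
      exact List.mem_map_of_mem (List.mem_range.mpr hk)
  · intro b _
    exact ⟨0, C, hC, fun c hc => Or.inl (h hc)⟩

theorem range_succ_map (b : ℕ → Cell) (n : ℕ) :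
    (List.range (n + 1)).map b = b 0 :: (List.range n).map (fun k => b (k + 1)) := by
  rw [List.range_succ_eq_map]
  simp [List.map_map, Function.comp_def]

open Classical in
theorem strat_of_move {M B : Finset Cell} (m : Cell) (hmM : m ∉ M) (hmB : m ∉ B)
    (h : ∀ b : Cell, b ∉ insert m M → b ∉ B → ∃ σ, StratWins (insert m M) (insert b B) σ) :
    ∃ σ, StratWins M B σ := by
  -- the strategy
  let τ : Cell → List Cell → Cell := fun x =>
    if hx : x ∉ insert m M ∧ x ∉ B then Classical.choose (h x hx.1 hx.2) else fun _ => m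
  have hτ : ∀ x, x ∉ insert m M → x ∉ B → StratWins (insert m M) (insert x B) (τ x) := by
    intro x h1 h2
    have e : τ x = Classical.choose (h x h1 h2) := by
      simp only [τ]
      rw [dif_pos ⟨h1, h2⟩]
    rw [e]
    exact Classical.choose_spec (h x h1 h2)
  let σ : List Cell → Cell := fun l =>
    match l with
    | [] => m
    | x :: l' => τ x l'
  have hσ0 : ∀ b : ℕ → Cell, cellAt σ b 0 = m := by
    intro b
    simp [cellAt, σ]
  have hσs : ∀ (b : ℕ → Cell) (n : ℕ),
      cellAt σ b (n + 1) = cellAt (τ (b 0)) (fun k => b (k + 1)) n := by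
    intro b n
    simp only [cellAt]
    rw [range_succ_map]
  -- shifting legality of Breaker
  have shift : ∀ (b : ℕ → Cell) (k : ℕ), LegalB M B σ b 0 → LegalB M B σ b (k + 1) →
      LegalB (insert m M) (insert (b 0) B) (τ (b 0)) (fun k => b (k + 1)) k := by
    intro b k h0 hk
    obtain ⟨h1, h2, h3, h4⟩ := hk
    refine ⟨?_, ?_, ?_, ?_⟩
    · rw [Finset.mem_insert]
      rintro (he | he)
      · exact h3 0 (Nat.zero_le _) (by rw [hσ0]; exact he)
      · exact h1 he
    · rw [Finset.mem_insert]
      rintro (he | he)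
      · exact h4 0 (Nat.succ_pos _) he
      · exact h2 he
    · intro j hj
      have := h3 (j + 1) (by omega)
      rwa [hσs] at this
    · intro j hj
      exact h4 (j + 1) (by omega)
  have first : ∀ b : ℕ → Cell, LegalB M B σ b 0 → b 0 ∉ insert m M ∧ b 0 ∉ B := by
    intro b h0
    obtain ⟨h1, h2, h3, _⟩ := h0
    refine ⟨?_, h2⟩
    rw [Finset.mem_insert]
    rintro (he | he)
    · exact h3 0 (le_refl _) (by rw [hσ0]; exact he)
    · exact h1 he
  refine ⟨σ, ?_, ?_⟩
  · intro b n hb
    cases n with
    | zero =>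
      refine ⟨?_, ?_, ?_, ?_⟩
      · rw [hσ0]; exact hmM
      · rw [hσ0]; exact hmB
      · intro k hk; omega
      · intro k hk; omega
    | succ n =>
      have h0 := hb 0 (Nat.succ_pos _)
      obtain ⟨hx1, hx2⟩ := first b h0
      have hS := hτ (b 0) hx1 hx2
      have hL := hS.1 (fun k => b (k + 1)) n
        (fun k hk => shift b k h0 (hb (k + 1) (by omega)))
      obtain ⟨l1, l2, l3, l4⟩ := hL
      refine ⟨?_, ?_, ?_, ?_⟩
      · rw [hσs]
        intro he
        exact l1 (Finset.mem_insert_of_mem he)
      · rw [hσs]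
        intro he
        exact l2 (Finset.mem_insert_of_mem he)
      · intro k hk
        rw [hσs]
        cases k with
        | zero =>
          rw [hσ0]
          intro he
          exact l1 (by rw [he]; exact Finset.mem_insert_self _ _)
        | succ k =>
          rw [hσs]
          exact l3 k (by omega)
      · intro k hk
        rw [hσs]
        cases k with
        | zero =>
          intro he
          exact l2 (by rw [he]; exact Finset.mem_insert_self _ _)
        | succ k =>
          exact l4 k (by omega)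
  · intro b hb
    have h0 := hb 0
    obtain ⟨hx1, hx2⟩ := first b h0
    have hS := hτ (b 0) hx1 hx2
    obtain ⟨n, C, hC, hc⟩ := hS.2 (fun k => b (k + 1)) (fun k => shift b k h0 (hb (k + 1)))
    refine ⟨n + 1, C, hC, ?_⟩
    intro c hcC
    rcases hc c hcC with h1 | ⟨k, hk, he⟩
    · rw [Finset.mem_insert] at h1
      rcases h1 with h1 | h1
      · exact Or.inr ⟨0, Nat.zero_le _, by rw [hσ0]; exact h1⟩
      · exact Or.inl h1
    · refine Or.inr ⟨k + 1, by omega, ?_⟩
      rw [hσs]
      exact he

theorem strat_of_makerWins {M B : Finset Cell} (h : MakerWins M B) : ∃ σ, StratWins M B σ := by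
  induction h with
  | won hC h => exact strat_of_won hC h
  | move m hmM hmB _ ih => exact strat_of_move m hmM hmB ih

/-- A forced win from the empty board gives an explicit winning strategy. -/
theorem hasWinningStrategy_of_makerWins (h : MakerWins ∅ ∅) :
    Vale.Agent.Lib.P062.MakerHasWinningStrategy := by
  obtain ⟨σ, h1, h2⟩ := strat_of_makerWins h
  have legB : ∀ (b : ℕ → Cell) (k : ℕ), Vale.Agent.Lib.P062.BreakerLegalAt σ b k →
      LegalB ∅ ∅ σ b k := by
    intro b k hk
    exact ⟨by simp, by simp, hk.1, hk.2⟩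
  refine ⟨σ, ?_, ?_⟩
  · intro b n hb
    have := h1 b n (fun k hk => legB b k (hb k hk))
    exact ⟨this.2.2.1, this.2.2.2⟩
  · intro b hb
    obtain ⟨n, C, ⟨t, swap, sx, sy, rfl⟩, hc⟩ := h2 b (fun k => legB b k (hb k))
    refine ⟨n, t, swap, (sx : ℤ), (sy : ℤ), ?_, ?_, ?_⟩
    · exact Int.isUnit_iff.mp sx.isUnit
    · exact Int.isUnit_iff.mp sy.isUnit
    · intro p hp
      have hp' : p ∈ snaky := by
        simpa [Vale.Agent.Lib.P062.snaky, snaky] using hp
      have hm := hc (t + signedPerm swap sx sy p) (Finset.mem_image_of_mem _ hp')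
      rcases hm with hm | ⟨k, hk, he⟩
      · simp at hm
      · refine ⟨k, hk, ?_⟩
        exact he
 
end Vale.Agent.Lib.P062.Thr
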