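import Vale.Agent.Lib.P062.Thr.Defs

/-!
Soundness of the certificate checker for the Snaky game.
-/

namespace Vale.Agent.Lib.P062.Thr

/-- Window cell with index `i`: the window has side 15 and is centred at the origin. -/
def cellOf (i : Nat) : Cell := (((i % 15 : Nat) : ℤ) - 7, ((i / 15 : Nat) : ℤ) - 7)

theorem cellOf_inj {i j : Nat} (h : cellOf i = cellOf j) : i = j := by
  simp only [cellOf, Prod.mk.injEq] at h
  omega

/-- `Good M B Z`: position `(M, B)` with Maker to move is a win for Maker, and the proof only
looks at the cells of the zone `Z`. -/
def Good (M B Z : Nat) : Prop :=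
  ∀ M' B' : Finset Cell,
    (∀ i, Z.testBit i = true → M.testBit i = true → cellOf i ∈ M') →
    (∀ i, Z.testBit i = true → cellOf i ∈ B' → B.testBit i = true) →
    MakerWins M' B'

theorem Good.mono {M B Z Z' : Nat} (h : Good M B Z)
    (hZ : ∀ i, Z.testBit i = true → Z'.testBit i = true) : Good M B Z' := by
  intro M' B' h1 h2
  exact h M' B' (fun i hi hM => h1 i (hZ i hi) hM) (fun i hi hB => h2 i (hZ i hi) hB)

/-- One-bit mask. -/
def bit (i : Nat) : Nat := Nat.shiftLeft 1 i

theorem testBit_bit (i j : Nat) : (bit i).testBit j = decide (j = i) := by
  have : bit i = 2 ^ i := by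
    simp [bit, Nat.shiftLeft_eq]
  rw [this, Nat.testBit_two_pow]
  by_cases h : j = i
  · simp [h]
  · have h' : ¬ i = j := fun e => h e.symm
    simp [h, h']

theorem testBit_lor (a b i : Nat) :
    (Nat.lor a b).testBit i = ((a.testBit i) || (b.testBit i)) := by
  exact Nat.testBit_or a b i

theorem testBit_land (a b i : Nat) :
    (Nat.land a b).testBit i = ((a.testBit i) && (b.testBit i)) := by
  exact Nat.testBit_and a b i

/-- Table of the eight normalised orientations, 64 bits per entry: bit `dx + 15 * dy`
for each cell of the normalised copy. -/
def baseMask (r : Nat) : Nat :=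
  Nat.land (Nat.shiftRight
    0x200040008001800110006000800100021000200040018002200060004000800100000000000f0003000000000001801e000000000007801800000000000c000f
    (Nat.mul 64 r)) 0xFFFFFFFFFFFFFFFF

/-- The copy with orientation `r` and normalised corner `s` fits into the window. -/
def copyValid (r s : Nat) : Bool :=
  cond (Nat.ble 4 r)
    (and (Nat.ble (Nat.add (Nat.mod s 15) 2) 15) (Nat.ble (Nat.add (Nat.div s 15) 5) 15))
    (and (Nat.ble (Nat.add (Nat.mod s 15) 5) 15) (Nat.ble (Nat.add (Nat.div s 15) 2) 15))

/-- Check a winning leaf: the copy (orientation `r`, corner `s`) avoids Breaker's cells and all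
its cells are Maker's except possibly `e`.  Returns the mask of the copy. -/
def winCheck (M B r s e : Nat) : Option Nat :=
  let c := Nat.shiftLeft (baseMask r) s
  cond (and (copyValid r s) (and (Nat.beq (Nat.land c B) 0)
      (Nat.beq (Nat.land c (Nat.lor M (bit e))) c)))
    (some c) none

/-- Read a 20-bit token. -/
def readTok (data pos : Nat) : Nat :=
  Nat.land (Nat.shiftRight data (Nat.mul 20 pos)) 0xFFFFF

/-- A verified fact: Maker's cells, Breaker's cells and the zone. -/
abbrev Fact := Nat × Nat × Nat

/-- Look up a fact. -/
def envGet : List Fact → Nat → Option Fact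
  | [], _ => none
  | e :: _, 0 => some e
  | _ :: es, j + 1 => envGet es j

theorem envGet_mem : ∀ (env : List Fact) (j : Nat) (e : Fact), envGet env j = some e → e ∈ env
  | [], _, _, h => by simp [envGet] at h
  | a :: es, 0, e, h => by
    simp only [envGet, Option.some.injEq] at h
    simp [h]
  | a :: es, j + 1, e, h => by
    simp only [envGet] at h
    exact List.mem_cons_of_mem _ (envGet_mem es j e h)

/-- Result of the checker: covered replies, zone, intersection accumulator, next position. -/
abbrev Res := Nat × Nat × Nat × Nat

/-- Type of the recursive call of the checker. -/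
abbrev Rec := Bool → Nat → Nat → Nat → Nat → Option Res

/-- Winning leaf. -/
def winStep (t pos M B : Nat) : Option Res :=
  Option.casesOn (motive := fun _ => Option Res)
    (winCheck M B (Nat.land (Nat.shiftRight t 1) 7) (Nat.land (Nat.shiftRight t 4) 255)
      (Nat.shiftRight t 12))
    none (fun c => some (0, c, 0, Nat.succ pos))

/-- Last check of a move node. -/
def play3 (m M' B Zp cov Zr X' p2 : Nat) : Option Res :=
  cond (Nat.beq (Nat.land X' (Nat.lor (Nat.lor M' B) cov)) X')
    (some (0, Nat.lor (Nat.lor Zp Zr) (bit m), 0, p2)) none

/-- Second part of a move node: the list of replies. -/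
def play2 (rec : Rec) (m M' B Zp p1 : Nat) : Option Res :=
  Option.casesOn (motive := fun _ => Option Res) (rec false p1 M' B Zp) none
    (fun r => play3 m M' B Zp r.1 r.2.1 r.2.2.1 r.2.2.2)

/-- First part of a move node: the proof of the position after Maker's move, with Maker to move
again (Breaker passes). -/
def play1 (rec : Rec) (m M' pos B : Nat) : Option Res :=
  Option.casesOn (motive := fun _ => Option Res) (rec true (Nat.succ pos) M' B 0) none
    (fun r => play2 rec m M' B r.2.1 r.2.2.2)

/-- A move node. -/
def playStep (rec : Rec) (m pos M B : Nat) : Option Res :=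
  cond (Nat.beq (Nat.land (bit m) B) 0) (play1 rec m (Nat.lor M (bit m)) pos B) none

/-- A reference to an earlier fact `(Ml, Bl, Zl)`: Maker must own what the fact needs in the zone,
and Breaker must own nothing in the zone beyond what the fact allows. -/
def refCheck (pos M B Ml Bl Zl : Nat) : Option Res :=
  cond (and (Nat.beq (Nat.land Ml M) Ml) (Nat.beq (Nat.land (Nat.land B Zl) Bl) (Nat.land B Zl)))
    (some (0, Zl, 0, Nat.succ pos)) none

/-- A reference node. -/
def refStep (env : List Fact) (j pos M B : Nat) : Option Res :=
  Option.casesOn (motive := fun _ => Option Res) (envGet env j) none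
    (fun e => refCheck pos M B e.1 e.2.1 e.2.2)

/-- Assemble the result of a reply entry. -/
def reply3 (b Zb cov Zr X' p2 : Nat) : Option Res :=
  some (Nat.lor cov (bit b), Nat.lor Zb Zr, X', p2)

/-- Second part of a reply entry: the rest of the list. -/
def reply2 (rec : Rec) (b M B X Zb p1 : Nat) : Option Res :=
  Option.casesOn (motive := fun _ => Option Res) (rec false p1 M B (Nat.land X Zb)) none
    (fun r => reply3 b Zb r.1 r.2.1 r.2.2.1 r.2.2.2)

/-- A reply entry. -/
def replyStep (rec : Rec) (b pos M B X : Nat) : Option Res :=
  Option.casesOn (motive := fun _ => Option Res) (rec true (Nat.succ pos) M (Nat.lor B (bit b)) 0) none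
    (fun r => reply2 rec b M B X r.2.1 r.2.2.2)

/-- Node mode: tag bit 0 clear is a winning leaf, tag bits 01 a move node, tag bits 11 a
reference. -/
def nodeStep (env : List Fact) (rec : Rec) (t pos M B : Nat) : Option Res :=
  cond (Nat.beq (Nat.land t 1) 0) (winStep t pos M B)
    (cond (Nat.beq (Nat.land t 2) 0) (playStep rec (Nat.shiftRight t 2) pos M B)
      (refStep env (Nat.shiftRight t 2) pos M B))

/-- List mode. -/
def listStep (rec : Rec) (t pos M B X : Nat) : Option Res :=
  cond (Nat.beq (Nat.land t 1) 0) (some (0, 0, X, Nat.succ pos))
    (replyStep rec (Nat.shiftRight t 1) pos M B X)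

/-- One step of the checker. -/
def step (data : Nat) (env : List Fact) (rec : Rec) (mode : Bool) (pos M B X : Nat) : Option Res :=
  cond mode (nodeStep env rec (readTok data pos) pos M B)
    (listStep rec (readTok data pos) pos M B X)

/-- The checker with fuel.  In node mode (`mode = true`) it reads a proof of the position `(M, B)`
with Maker to move and returns its zone.  In list mode it reads a list of Breaker replies, each
with its proof, and returns the mask of the replies covered, the union of the zones, and the
intersection of the zones with the accumulator `X`. -/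
noncomputable def run (data : Nat) (env : List Fact) (f : Nat) : Rec :=
  Nat.rec (motive := fun _ => Rec) (fun _ _ _ _ _ => none)
    (fun _ ih mode pos M B X => step data env ih mode pos M B X) f

theorem run_zero (data : Nat) (env : List Fact) (mode : Bool) (pos M B X : Nat) :
    run data env 0 mode pos M B X = none := rfl

theorem run_succ (data : Nat) (env : List Fact) (f : Nat) (mode : Bool) (pos M B X : Nat) :
    run data env (f + 1) mode pos M B X = step data env (run data env f) mode pos M B X := rfl

/-- Every bit of `a` is in `b` when `a &&& b = a`. -/
theorem testBit_of_land_eq {a b i : Nat} (h : Nat.beq (Nat.land a b) a = true)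
    (hi : a.testBit i = true) : b.testBit i = true := by
  have h1 : Nat.land a b = a := Nat.eq_of_beq_eq_true h
  have h2 := testBit_land a b i
  rw [h1, hi] at h2
  simpa using h2.symm

theorem not_both_of_land_zero {a b i : Nat} (h : Nat.beq (Nat.land a b) 0 = true)
    (hi : a.testBit i = true) : b.testBit i = false := by
  have h1 : Nat.land a b = 0 := Nat.eq_of_beq_eq_true h
  have h2 := testBit_land a b i
  rw [h1, hi] at h2
  simpa using h2.symm

theorem cellOf_add (s dx dy : Nat) (hx : s % 15 + dx < 15) :
    cellOf (s + (dx + 15 * dy)) = (((s % 15 : Nat) : ℤ) + dx - 7, ((s / 15 : Nat) : ℤ) + dy - 7) := by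
  simp only [cellOf, Prod.mk.injEq]
  constructor <;> omega

theorem copy_of (r s : Nat) (t : Cell) (swap : Bool) (sx sy : ℤˣ)
    (H : ∀ c ∈ snaky, ∃ dx dy : Nat, (baseMask r).testBit (dx + 15 * dy) = true ∧ s % 15 + dx < 15 ∧
      t + signedPerm swap sx sy c = (((s % 15 : Nat) : ℤ) + dx - 7, ((s / 15 : Nat) : ℤ) + dy - 7)) :
    ∃ C : Finset Cell, IsCopy C ∧
      ∀ p ∈ C, ∃ i, (Nat.shiftLeft (baseMask r) s).testBit i = true ∧ cellOf i = p := by
  refine ⟨snaky.image (fun c => t + signedPerm swap sx sy c), ⟨t, swap, sx, sy, rfl⟩, ?_⟩
  intro p hp
  obtain ⟨c, hc, rfl⟩ := Finset.mem_image.mp hp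
  obtain ⟨dx, dy, h1, h2, h3⟩ := H c hc
  refine ⟨s + (dx + 15 * dy), ?_, ?_⟩
  · have : (Nat.shiftLeft (baseMask r) s) = (baseMask r) <<< s := rfl
    rw [this, Nat.testBit_shiftLeft]
    simp [h1]
  · rw [cellOf_add s dx dy h2, h3]

theorem copyValid_spec {r s : Nat} (hv : copyValid r s = true) :
    (4 ≤ r → s % 15 + 2 ≤ 15) ∧ (r < 4 → s % 15 + 5 ≤ 15) := by
  unfold copyValid at hv
  cases h4 : Nat.ble 4 r with
  | true =>
    rw [h4] at hv
    simp only [cond_true, Bool.and_eq_true] at hv
    have h1 : s % 15 + 2 ≤ 15 := Nat.le_of_ble_eq_true hv.1
    have h2 : 4 ≤ r := Nat.le_of_ble_eq_true h4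
    exact ⟨fun _ => h1, fun h3 => absurd h2 (by omega)⟩
  | false =>
    rw [h4] at hv
    simp only [cond_false, Bool.and_eq_true] at hv
    have h1 : s % 15 + 5 ≤ 15 := Nat.le_of_ble_eq_true hv.1
    have h2 : ¬ 4 ≤ r := by
      intro h5
      have := Nat.ble_eq_true_of_le h5
      rw [h4] at this
      cases this
    exact ⟨fun h3 => absurd h3 h2, fun _ => h1⟩

/-- The copy described by orientation `r` and corner `s`. -/
theorem exists_copy (r s : Nat) (hr : r < 8) (hv : copyValid r s = true) :
    ∃ C : Finset Cell, IsCopy C ∧
      ∀ p ∈ C, ∃ i, (Nat.shiftLeft (baseMask r) s).testBit i = true ∧ cellOf i = p := by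
  obtain ⟨hv1, hv2⟩ := copyValid_spec hv
  interval_cases r
  · have hx := hv2 (by norm_num)
    refine copy_of 0 s (((s % 15 : Nat) : ℤ) - 7 + 0, ((s / 15 : Nat) : ℤ) - 7 + 0) false 1 1 ?_
    intro c hc
    simp only [snaky, Finset.mem_insert, Finset.mem_singleton] at hc
    rcases hc with rfl | rfl | rfl | rfl | rfl | rfl
    · refine ⟨0, 0, rfl, by omega, ?_⟩
      ext <;> simp [signedPerm] <;> ring
    · refine ⟨1, 0, rfl, by omega, ?_⟩
      ext <;> simp [signedPerm] <;> ring
    · refine ⟨2, 0, rfl, by omega, ?_⟩
      ext <;> simp [signedPerm] <;> ring
    · refine ⟨3, 0, rfl, by omega, ?_⟩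
      ext <;> simp [signedPerm] <;> ring
    · refine ⟨3, 1, rfl, by omega, ?_⟩
      ext <;> simp [signedPerm] <;> ring
    · refine ⟨4, 1, rfl, by omega, ?_⟩
      ext <;> simp [signedPerm] <;> ring
  · have hx := hv2 (by norm_num)
    refine copy_of 1 s (((s % 15 : Nat) : ℤ) - 7 + 0, ((s / 15 : Nat) : ℤ) - 7 + 1) false 1 (-1) ?_
    intro c hc
    simp only [snaky, Finset.mem_insert, Finset.mem_singleton] at hc
    rcases hc with rfl | rfl | rfl | rfl | rfl | rfl
    · refine ⟨0, 1, rfl, by omega, ?_⟩
      ext <;> simp [signedPerm] <;> ring
    · refine ⟨1, 1, rfl, by omega, ?_⟩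
      ext <;> simp [signedPerm] <;> ring
    · refine ⟨2, 1, rfl, by omega, ?_⟩
      ext <;> simp [signedPerm] <;> ring
    · refine ⟨3, 1, rfl, by omega, ?_⟩
      ext <;> simp [signedPerm] <;> ring
    · refine ⟨3, 0, rfl, by omega, ?_⟩
      ext <;> simp [signedPerm] <;> ring
    · refine ⟨4, 0, rfl, by omega, ?_⟩
      ext <;> simp [signedPerm] <;> ring
  · have hx := hv2 (by norm_num)
    refine copy_of 2 s (((s % 15 : Nat) : ℤ) - 7 + 4, ((s / 15 : Nat) : ℤ) - 7 + 0) false (-1) 1 ?_
    intro c hc
    simp only [snaky, Finset.mem_insert, Finset.mem_singleton] at hc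
    rcases hc with rfl | rfl | rfl | rfl | rfl | rfl
    · refine ⟨4, 0, rfl, by omega, ?_⟩
      ext <;> simp [signedPerm] <;> ring
    · refine ⟨3, 0, rfl, by omega, ?_⟩
      ext <;> simp [signedPerm] <;> ring
    · refine ⟨2, 0, rfl, by omega, ?_⟩
      ext <;> simp [signedPerm] <;> ring
    · refine ⟨1, 0, rfl, by omega, ?_⟩
      ext <;> simp [signedPerm] <;> ring
    · refine ⟨1, 1, rfl, by omega, ?_⟩
      ext <;> simp [signedPerm] <;> ring
    · refine ⟨0, 1, rfl, by omega, ?_⟩
      ext <;> simp [signedPerm] <;> ring
  · have hx := hv2 (by norm_num)
    refine copy_of 3 s (((s % 15 : Nat) : ℤ) - 7 + 4, ((s / 15 : Nat) : ℤ) - 7 + 1) false (-1) (-1) ?_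
    intro c hc
    simp only [snaky, Finset.mem_insert, Finset.mem_singleton] at hc
    rcases hc with rfl | rfl | rfl | rfl | rfl | rfl
    · refine ⟨4, 1, rfl, by omega, ?_⟩
      ext <;> simp [signedPerm] <;> ring
    · refine ⟨3, 1, rfl, by omega, ?_⟩
      ext <;> simp [signedPerm] <;> ring
    · refine ⟨2, 1, rfl, by omega, ?_⟩
      ext <;> simp [signedPerm] <;> ring
    · refine ⟨1, 1, rfl, by omega, ?_⟩
      ext <;> simp [signedPerm] <;> ring
    · refine ⟨1, 0, rfl, by omega, ?_⟩
      ext <;> simp [signedPerm] <;> ring
    · refine ⟨0, 0, rfl, by omega, ?_⟩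
      ext <;> simp [signedPerm] <;> ring
  · have hx := hv1 (by norm_num)
    refine copy_of 4 s (((s % 15 : Nat) : ℤ) - 7 + 0, ((s / 15 : Nat) : ℤ) - 7 + 0) true 1 1 ?_
    intro c hc
    simp only [snaky, Finset.mem_insert, Finset.mem_singleton] at hc
    rcases hc with rfl | rfl | rfl | rfl | rfl | rfl
    · refine ⟨0, 0, rfl, by omega, ?_⟩
      ext <;> simp [signedPerm] <;> ring
    · refine ⟨0, 1, rfl, by omega, ?_⟩
      ext <;> simp [signedPerm] <;> ring
    · refine ⟨0, 2, rfl, by omega, ?_⟩
      ext <;> simp [signedPerm] <;> ring
    · refine ⟨0, 3, rfl, by omega, ?_⟩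
      ext <;> simp [signedPerm] <;> ring
    · refine ⟨1, 3, rfl, by omega, ?_⟩
      ext <;> simp [signedPerm] <;> ring
    · refine ⟨1, 4, rfl, by omega, ?_⟩
      ext <;> simp [signedPerm] <;> ring
  · have hx := hv1 (by norm_num)
    refine copy_of 5 s (((s % 15 : Nat) : ℤ) - 7 + 0, ((s / 15 : Nat) : ℤ) - 7 + 4) true 1 (-1) ?_
    intro c hc
    simp only [snaky, Finset.mem_insert, Finset.mem_singleton] at hc
    rcases hc with rfl | rfl | rfl | rfl | rfl | rfl
    · refine ⟨0, 4, rfl, by omega, ?_⟩
      ext <;> simp [signedPerm] <;> ring
    · refine ⟨0, 3, rfl, by omega, ?_⟩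
      ext <;> simp [signedPerm] <;> ring
    · refine ⟨0, 2, rfl, by omega, ?_⟩
      ext <;> simp [signedPerm] <;> ring
    · refine ⟨0, 1, rfl, by omega, ?_⟩
      ext <;> simp [signedPerm] <;> ring
    · refine ⟨1, 1, rfl, by omega, ?_⟩
      ext <;> simp [signedPerm] <;> ring
    · refine ⟨1, 0, rfl, by omega, ?_⟩
      ext <;> simp [signedPerm] <;> ring
  · have hx := hv1 (by norm_num)
    refine copy_of 6 s (((s % 15 : Nat) : ℤ) - 7 + 1, ((s / 15 : Nat) : ℤ) - 7 + 0) true (-1) 1 ?_
    intro c hc
    simp only [snaky, Finset.mem_insert, Finset.mem_singleton] at hc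
    rcases hc with rfl | rfl | rfl | rfl | rfl | rfl
    · refine ⟨1, 0, rfl, by omega, ?_⟩
      ext <;> simp [signedPerm] <;> ring
    · refine ⟨1, 1, rfl, by omega, ?_⟩
      ext <;> simp [signedPerm] <;> ring
    · refine ⟨1, 2, rfl, by omega, ?_⟩
      ext <;> simp [signedPerm] <;> ring
    · refine ⟨1, 3, rfl, by omega, ?_⟩
      ext <;> simp [signedPerm] <;> ring
    · refine ⟨0, 3, rfl, by omega, ?_⟩
      ext <;> simp [signedPerm] <;> ring
    · refine ⟨0, 4, rfl, by omega, ?_⟩
      ext <;> simp [signedPerm] <;> ring
  · have hx := hv1 (by norm_num)
    refine copy_of 7 s (((s % 15 : Nat) : ℤ) - 7 + 1, ((s / 15 : Nat) : ℤ) - 7 + 4) true (-1) (-1) ?_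
    intro c hc
    simp only [snaky, Finset.mem_insert, Finset.mem_singleton] at hc
    rcases hc with rfl | rfl | rfl | rfl | rfl | rfl
    · refine ⟨1, 4, rfl, by omega, ?_⟩
      ext <;> simp [signedPerm] <;> ring
    · refine ⟨1, 3, rfl, by omega, ?_⟩
      ext <;> simp [signedPerm] <;> ring
    · refine ⟨1, 2, rfl, by omega, ?_⟩
      ext <;> simp [signedPerm] <;> ring
    · refine ⟨1, 1, rfl, by omega, ?_⟩
      ext <;> simp [signedPerm] <;> ring
    · refine ⟨0, 1, rfl, by omega, ?_⟩
      ext <;> simp [signedPerm] <;> ring
    · refine ⟨0, 0, rfl, by omega, ?_⟩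
      ext <;> simp [signedPerm] <;> ring

/-- Soundness of a winning leaf. -/
theorem winCheck_sound {M B r s e c : Nat} (hr : r < 8) (h : winCheck M B r s e = some c) :
    Good M B c := by
  unfold winCheck at h
  dsimp only at h
  cases hb : (and (copyValid r s) (and (Nat.beq (Nat.land (Nat.shiftLeft (baseMask r) s) B) 0)
      (Nat.beq (Nat.land (Nat.shiftLeft (baseMask r) s) (Nat.lor M (bit e)))
        (Nat.shiftLeft (baseMask r) s)))) with
  | false =>
    rw [hb] at h
    exact absurd h (by simp)
  | true =>
    rw [hb] at h
    have hc : Nat.shiftLeft (baseMask r) s = c := by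
      simpa using h
    rw [Bool.and_eq_true, Bool.and_eq_true] at hb
    obtain ⟨hcv, h1, h2⟩ := hb
    rw [hc] at h1 h2
    obtain ⟨C, hC, hcells⟩ := exists_copy r s hr hcv
    rw [hc] at hcells
    intro M' B' hM hB
    by_cases hsub : C ⊆ M'
    · exact MakerWins.won hC hsub
    · obtain ⟨p, hpC, hpM⟩ := Finset.not_subset.mp hsub
      obtain ⟨i, hi, rfl⟩ := hcells p hpC
      have hi2 := testBit_of_land_eq h2 hi
      rw [testBit_lor, Bool.or_eq_true, testBit_bit] at hi2
      have hie : i = e := by
        rcases hi2 with hi2 | hi2
        · exact absurd (hM i hi hi2) hpM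
        · simpa using hi2
      subst hie
      have hnB : cellOf i ∉ B' := by
        intro hin
        have := hB i hi hin
        have h3 := not_both_of_land_zero h1 hi
        rw [this] at h3
        cases h3
      refine MakerWins.move (cellOf i) hpM hnB ?_
      intro b _ _
      refine MakerWins.won hC ?_
      intro q hq
      obtain ⟨j, hj, rfl⟩ := hcells q hq
      have hj2 := testBit_of_land_eq h2 hj
      rw [testBit_lor, Bool.or_eq_true, testBit_bit] at hj2
      rcases hj2 with hj2 | hj2
      · exact Finset.mem_insert_of_mem (hM j hj hj2)
      · have : j = i := by simpa using hj2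
        subst this
        exact Finset.mem_insert_self _ _

/-- The semantic content of a reply list. -/
def ListGood (M B X cov Z X' : Nat) : Prop :=
  (∀ i, cov.testBit i = true → Good M (Nat.lor B (bit i)) Z) ∧
  ∀ p : Cell, (∀ i, X'.testBit i = true → cellOf i ≠ p) →
    (∀ i, X.testBit i = true → cellOf i ≠ p) ∨
    ∃ B0 Z0 : Nat, Good M B0 Z0 ∧ (∀ j, B.testBit j = true → B0.testBit j = true) ∧
      (∀ j, Z0.testBit j = true → Z.testBit j = true) ∧ (∀ j, Z0.testBit j = true → cellOf j ≠ p)

/-- All facts of the list are true. -/
def EnvGood (env : List Fact) : Prop := ∀ e ∈ env, Good e.1 e.2.1 e.2.2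

theorem refCheck_sound {pos M B Ml Bl Zl : Nat} {R : Res}
    (h : refCheck pos M B Ml Bl Zl = some R) (g : Good Ml Bl Zl) :
    Good M B R.2.1 := by
  unfold refCheck at h
  cases hb : (and (Nat.beq (Nat.land Ml M) Ml)
      (Nat.beq (Nat.land (Nat.land B Zl) Bl) (Nat.land B Zl))) with
  | false =>
    rw [hb] at h
    exact absurd h (by simp)
  | true =>
    rw [hb] at h
    simp only [cond_true, Option.some.injEq] at h
    subst h
    rw [Bool.and_eq_true] at hb
    obtain ⟨h1, h2⟩ := hb
    intro M' B' hM hB
    refine g M' B' ?_ ?_
    · intro i hi hl
      exact hM i hi (testBit_of_land_eq h1 hl)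
    · intro i hi hin
      have h3 := hB i hi hin
      have h4 : (Nat.land B Zl).testBit i = true := by
        rw [testBit_land, h3, hi]
        rfl
      exact testBit_of_land_eq h2 h4

/-- Main soundness theorem of the checker. -/
theorem run_sound (data : Nat) (env : List Fact) (henv : EnvGood env) :
    ∀ (f : Nat) (mode : Bool) (pos M B X cov Z X' pos' : Nat),
    run data env f mode pos M B X = some (cov, Z, X', pos') →
    (mode = true → Good M B Z) ∧ (mode = false → ListGood M B X cov Z X') := by
  intro f
  induction f with
  | zero =>
    intro mode pos M B X cov Z X' pos' h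
    rw [run_zero] at h
    cases h
  | succ f ih =>
    intro mode pos M B X cov Z X' pos' h
    rw [run_succ] at h
    cases mode with
    | true =>
      refine ⟨fun _ => ?_, fun h' => by cases h'⟩
      simp only [step, cond_true, nodeStep] at h
      cases htag : Nat.beq (Nat.land (readTok data pos) 1) 0 with
      | true =>
        rw [htag] at h
        simp only [cond_true, winStep] at h
        cases hw : winCheck M B (Nat.land (Nat.shiftRight (readTok data pos) 1) 7)
            (Nat.land (Nat.shiftRight (readTok data pos) 4) 255)
            (Nat.shiftRight (readTok data pos) 12) with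
        | none =>
          rw [hw] at h
          cases h
        | some c =>
          rw [hw] at h
          simp only [Option.some.injEq, Prod.mk.injEq] at h
          obtain ⟨-, rfl, -⟩ := h
          refine winCheck_sound ?_ hw
          exact lt_of_le_of_lt (Nat.and_le_right) (by norm_num)
      | false =>
        rw [htag] at h
        simp only [cond_false] at h
        cases htag2 : Nat.beq (Nat.land (readTok data pos) 2) 0 with
        | false =>
          rw [htag2] at h
          simp only [cond_false, refStep] at h
          cases he : envGet env (Nat.shiftRight (readTok data pos) 2) with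
          | none =>
            rw [he] at h
            cases h
          | some e =>
            rw [he] at h
            obtain ⟨Ml, Bl, Zl⟩ := e
            have hg := henv _ (envGet_mem _ _ _ he)
            simp only at h hg
            exact refCheck_sound h hg
        | true =>
          rw [htag2] at h
          simp only [cond_true, playStep] at h
          generalize hm : Nat.shiftRight (readTok data pos) 2 = m at h
          cases hbm0 : Nat.beq (Nat.land (bit m) B) 0 with
          | false =>
            rw [hbm0] at h
            cases h
          | true =>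
            rw [hbm0] at h
            simp only [cond_true, play1] at h
            have hbm : B.testBit m = false :=
              not_both_of_land_zero hbm0 (by rw [testBit_bit]; simp)
            generalize hM1 : Nat.lor M (bit m) = M1 at h
            cases hp : run data env f true (Nat.succ pos) M1 B 0 with
            | none =>
              rw [hp] at h
              cases h
            | some rp =>
              obtain ⟨c0, Zp, x0, p1⟩ := rp
              rw [hp] at h
              simp only [play2] at h
              cases hr : run data env f false p1 M1 B Zp with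
              | none =>
                rw [hr] at h
                cases h
              | some rr =>
                obtain ⟨cv, Zr, Xr, p2⟩ := rr
                rw [hr] at h
                simp only [play3] at h
                cases hc : Nat.beq (Nat.land Xr (Nat.lor (Nat.lor M1 B) cv)) Xr with
                | false =>
                  rw [hc] at h
                  cases h
                | true =>
                  rw [hc] at h
                  simp only [cond_true, Option.some.injEq, Prod.mk.injEq] at h
                  obtain ⟨-, rfl, -⟩ := h
                  have gp : Good M1 B Zp := (ih true _ _ _ _ _ _ _ _ hp).1 rfl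
                  obtain ⟨gr, gx⟩ := (ih false _ _ _ _ _ _ _ _ hr).2 rfl
                  have hZp : ∀ i, Zp.testBit i = true →
                      (Nat.lor (Nat.lor Zp Zr) (bit m)).testBit i = true := by
                    intro i hi
                    simp [testBit_lor, hi]
                  have hZr : ∀ i, Zr.testBit i = true →
                      (Nat.lor (Nat.lor Zp Zr) (bit m)).testBit i = true := by
                    intro i hi
                    simp [testBit_lor, hi]
                  have hZm : (Nat.lor (Nat.lor Zp Zr) (bit m)).testBit m = true := by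
                    simp [testBit_lor, testBit_bit]
                  intro M' B' hM hB
                  have hM1' : ∀ i, M1.testBit i = true → M.testBit i = true ∨ i = m := by
                    intro i hi
                    rw [← hM1, testBit_lor, Bool.or_eq_true, testBit_bit] at hi
                    simpa using hi
                  by_cases hcm : cellOf m ∈ M'
                  · refine gp M' B' ?_ ?_
                    · intro i hi hi1
                      rcases hM1' i hi1 with h3 | h3
                      · exact hM i (hZp i hi) h3
                      · rw [h3]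
                        exact hcm
                    · intro i hi hi1
                      exact hB i (hZp i hi) hi1
                  · have hcB : cellOf m ∉ B' := by
                      intro hin
                      have := hB m hZm hin
                      rw [hbm] at this
                      cases this
                    refine MakerWins.move (cellOf m) hcm hcB ?_
                    intro b hb1 hb2
                    have hMnew : ∀ Z1 : Nat, (∀ i, Z1.testBit i = true →
                        (Nat.lor (Nat.lor Zp Zr) (bit m)).testBit i = true) →
                        ∀ i, Z1.testBit i = true → M1.testBit i = true →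
                          cellOf i ∈ insert (cellOf m) M' := by
                      intro Z1 hZ1 i hi hi1
                      rcases hM1' i hi1 with h3 | h3
                      · exact Finset.mem_insert_of_mem (hM i (hZ1 i hi) h3)
                      · rw [h3]
                        exact Finset.mem_insert_self _ _
                    by_cases hbz : ∃ i, Xr.testBit i = true ∧ cellOf i = b
                    · obtain ⟨i, hi, rfl⟩ := hbz
                      have hcov := testBit_of_land_eq hc hi
                      rw [testBit_lor, testBit_lor, Bool.or_eq_true, Bool.or_eq_true] at hcov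
                      rcases hcov with (hc1 | hc2) | hc3
                      · by_cases hzi : (Nat.lor (Nat.lor Zp Zr) (bit m)).testBit i = true
                        · exact absurd (hMnew _ (fun _ h => h) i hzi hc1) hb1
                        · -- the cell is not in the zone, so the pass proof applies
                          refine gp _ _ (hMnew Zp hZp) ?_
                          intro j hj hjin
                          rcases Finset.mem_insert.mp hjin with h3 | h3
                          · rw [cellOf_inj h3]
                            exact absurd (hZp i (by rw [cellOf_inj h3] at hj; exact hj)) hzi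
                          · exact hB j (hZp j hj) h3
                      · refine gp _ _ (hMnew Zp hZp) ?_
                        intro j hj hjin
                        rcases Finset.mem_insert.mp hjin with h3 | h3
                        · rw [cellOf_inj h3]
                          exact hc2
                        · exact hB j (hZp j hj) h3
                      · refine gr i hc3 _ _ (hMnew Zr hZr) ?_
                        intro j hj hjin
                        rw [testBit_lor, Bool.or_eq_true, testBit_bit]
                        rcases Finset.mem_insert.mp hjin with h3 | h3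
                        · right
                          simpa using cellOf_inj h3
                        · left
                          exact hB j (hZr j hj) h3
                    · have hbz' : ∀ i, Xr.testBit i = true → cellOf i ≠ b :=
                        fun i hi h3 => hbz ⟨i, hi, h3⟩
                      rcases gx b hbz' with h4 | ⟨B0, Z0, g0, hB0, hZ0, hZc⟩
                      · refine gp _ _ (hMnew Zp hZp) ?_
                        intro j hj hjin
                        rcases Finset.mem_insert.mp hjin with h3 | h3
                        · exact absurd h3 (h4 j hj)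
                        · exact hB j (hZp j hj) h3
                      · refine g0 _ _ (hMnew Z0 (fun i hi => hZr i (hZ0 i hi))) ?_
                        intro j hj hjin
                        rcases Finset.mem_insert.mp hjin with h3 | h3
                        · exact absurd h3 (hZc j hj)
                        · exact hB0 j (hB j (hZr j (hZ0 j hj)) h3)
    | false =>
      refine ⟨(fun h' => by cases h'), fun _ => ?_⟩
      simp only [step, cond_false, listStep] at h
      cases htag : Nat.beq (Nat.land (readTok data pos) 1) 0 with
      | true =>
        rw [htag] at h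
        simp only [cond_true, Option.some.injEq, Prod.mk.injEq] at h
        obtain ⟨rfl, rfl, rfl, -⟩ := h
        refine ⟨?_, fun p hp => Or.inl hp⟩
        intro i hi
        simp at hi
      | false =>
        rw [htag] at h
        simp only [cond_false, replyStep] at h
        generalize hb0 : Nat.shiftRight (readTok data pos) 1 = b0 at h
        cases hp : run data env f true (Nat.succ pos) M (Nat.lor B (bit b0)) 0 with
        | none =>
          rw [hp] at h
          cases h
        | some rp =>
          obtain ⟨c0, Zb, x0, p1⟩ := rp
          rw [hp] at h
          simp only [reply2] at h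
          cases hr : run data env f false p1 M B (Nat.land X Zb) with
          | none =>
            rw [hr] at h
            cases h
          | some rr =>
            obtain ⟨cv, Zr, Xr, p2⟩ := rr
            rw [hr] at h
            simp only [reply3, Option.some.injEq, Prod.mk.injEq] at h
            obtain ⟨rfl, rfl, rfl, -⟩ := h
            have gb : Good M (Nat.lor B (bit b0)) Zb := (ih true _ _ _ _ _ _ _ _ hp).1 rfl
            obtain ⟨gr, gx⟩ := (ih false _ _ _ _ _ _ _ _ hr).2 rfl
            refine ⟨?_, ?_⟩
            · intro i hi
              rw [testBit_lor, Bool.or_eq_true, testBit_bit] at hi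
              rcases hi with hi | hi
              · refine (gr i hi).mono ?_
                intro j hj
                simp [testBit_lor, hj]
              · have : i = b0 := by simpa using hi
                subst this
                refine gb.mono ?_
                intro j hj
                simp [testBit_lor, hj]
            · intro p hp
              rcases gx p hp with h4 | ⟨B0, Z0, g0, hB0, hZ0, hZc⟩
              · by_cases h5 : ∀ i, X.testBit i = true → cellOf i ≠ p
                · exact Or.inl h5
                · right
                  refine ⟨Nat.lor B (bit b0), Zb, gb, ?_, ?_, ?_⟩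
                  · intro j hj
                    simp [testBit_lor, hj]
                  · intro j hj
                    simp [testBit_lor, hj]
                  · intro j hj h6
                    apply h5
                    intro i hi h7
                    have h8 : cellOf i = cellOf j := h7.trans h6.symm
                    have h9 := cellOf_inj h8
                    subst h9
                    have h10 := h4 i
                    rw [testBit_land, hi, hj] at h10
                    exact h10 rfl h7
              · right
                refine ⟨B0, Z0, g0, hB0, ?_, hZc⟩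
                intro j hj
                simp [testBit_lor, hZ0 j hj]

/-- The form in which the checker is used: a fact proved by a token stream, given earlier facts. -/
theorem good_of_run {data : Nat} {env : List Fact} (henv : EnvGood env) {f M B Z n : Nat}
    (h : run data env f true 0 M B 0 = some (0, Z, 0, n)) : Good M B Z :=
  (run_sound data env henv f true 0 M B 0 0 Z 0 n h).1 rfl

/-- Boolean test: the token stream proves the fact `e`. -/
noncomputable def checkFact (data : Nat) (env : List Fact) (f : Nat) (e : Fact) : Bool :=
  Option.casesOn (motive := fun _ => Bool) (run data env f true 0 e.1 e.2.1 0) false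
    (fun r => Nat.beq r.2.1 e.2.2)

theorem good_of_check {data : Nat} {env : List Fact} {f : Nat} {e : Fact} (henv : EnvGood env)
    (h : checkFact data env f e = true) : Good e.1 e.2.1 e.2.2 := by
  unfold checkFact at h
  cases hr : run data env f true 0 e.1 e.2.1 0 with
  | none =>
    rw [hr] at h
    cases h
  | some r =>
    rw [hr] at h
    obtain ⟨a, Z, b, c⟩ := r
    have hZ : Z = e.2.2 := Nat.eq_of_beq_eq_true h
    rw [← hZ]
    exact (run_sound data env henv f true 0 _ _ 0 a Z b c hr).1 rfl

theorem envGood_nil : EnvGood [] := by
  intro e he
  cases he

theorem envGood_cons {e : Fact} {env : List Fact} (h : Good e.1 e.2.1 e.2.2) (hs : EnvGood env) :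
    EnvGood (e :: env) := by
  intro a ha
  rcases List.mem_cons.mp ha with rfl | h2
  · exact h
  · exact hs a h2

end Vale.Agent.Lib.P062.Thr
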