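import Vale.Agent.Lib.P062.Thr.Sym
import Vale.Agent.Lib.P062.Thr.Data.D9

namespace Vale.Agent.Lib.P062.Thr

theorem fact_pass : Good (bit 112) FD_4681.2.1 FD_4681.2.2 := GD_4681
theorem fact_r4_3 : Good (bit 112) FD_8463.2.1 FD_8463.2.2 := GD_8463
theorem fact_r5_0 : Good (bit 112) FD_11309.2.1 FD_11309.2.2 := GD_11309
theorem fact_r4_2 : Good (bit 112) FD_14504.2.1 FD_14504.2.2 := GD_14504
theorem fact_r3_3 : Good (bit 112) FD_17136.2.1 FD_17136.2.2 := GD_17136
theorem fact_r4_1 : Good (bit 112) FD_20214.2.1 FD_20214.2.2 := GD_20214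
theorem fact_r4_0 : Good (bit 112) FD_22759.2.1 FD_22759.2.2 := GD_22759
theorem fact_r3_2 : Good (bit 112) FD_24717.2.1 FD_24717.2.2 := GD_24717
theorem fact_r3_1 : Good (bit 112) FD_27493.2.1 FD_27493.2.2 := GD_27493
theorem fact_r3_0 : Good (bit 112) FD_29655.2.1 FD_29655.2.2 := GD_29655
theorem fact_r2_2 : Good (bit 112) FD_32267.2.1 FD_32267.2.2 := GD_32267
theorem fact_r2_0 : Good (bit 112) FD_36658.2.1 FD_36658.2.2 := GD_36658
theorem fact_r2_1 : Good (bit 112) FD_41523.2.1 FD_41523.2.2 := GD_41523

theorem w_2_2 : W (2, 2) := by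
  have h := W_of_good_index 144 fact_r2_2 (Or.inl (by decide))
  have e : cellOf 144 = (2, 2) := by decide
  rw [e] at h
  exact h

theorem w_3_0 : W (3, 0) := by
  have h := W_of_good_index 115 fact_r3_0 (Or.inl (by decide))
  have e : cellOf 115 = (3, 0) := by decide
  rw [e] at h
  exact h

theorem w_3_1 : W (3, 1) := by
  have h := W_of_good_index 130 fact_r3_1 (Or.inl (by decide))
  have e : cellOf 130 = (3, 1) := by decide
  rw [e] at h
  exact h

theorem w_3_2 : W (3, 2) := by
  have h := W_of_good_index 145 fact_r3_2 (Or.inl (by decide))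
  have e : cellOf 145 = (3, 2) := by decide
  rw [e] at h
  exact h

theorem w_3_3 : W (3, 3) := by
  have h := W_of_good_index 160 fact_r3_3 (Or.inl (by decide))
  have e : cellOf 160 = (3, 3) := by decide
  rw [e] at h
  exact h

theorem w_4_0 : W (4, 0) := by
  have h := W_of_good_index 116 fact_r4_0 (Or.inl (by decide))
  have e : cellOf 116 = (4, 0) := by decide
  rw [e] at h
  exact h

theorem w_4_1 : W (4, 1) := by
  have h := W_of_good_index 131 fact_r4_1 (Or.inl (by decide))
  have e : cellOf 131 = (4, 1) := by decide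
  rw [e] at h
  exact h

theorem w_4_2 : W (4, 2) := by
  have h := W_of_good_index 146 fact_r4_2 (Or.inl (by decide))
  have e : cellOf 146 = (4, 2) := by decide
  rw [e] at h
  exact h

theorem w_4_3 : W (4, 3) := by
  have h := W_of_good_index 161 fact_r4_3 (Or.inl (by decide))
  have e : cellOf 161 = (4, 3) := by decide
  rw [e] at h
  exact h

theorem w_4_4 : W (4, 4) := by
  have h := W_of_good_index 176 fact_pass (Or.inl (by decide))
  have e : cellOf 176 = (4, 4) := by decide
  rw [e] at h
  exact h

theorem w_5_0 : W (5, 0) := by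
  have h := W_of_good_index 117 fact_r5_0 (Or.inl (by decide))
  have e : cellOf 117 = (5, 0) := by decide
  rw [e] at h
  exact h

theorem w_5_1 : W (5, 1) := by
  have h := W_of_good_index 122 fact_pass (Or.inl (by decide))
  have e : cellOf 122 = ((-5), 1) := by decide
  rw [e] at h
  have h2 := W_image false (-1) 1 h
  simpa [signedPerm] using h2

theorem w_5_2 : W (5, 2) := by
  have h := W_of_good_index 137 fact_pass (Or.inl (by decide))
  have e : cellOf 137 = ((-5), 2) := by decide
  rw [e] at h
  have h2 := W_image false (-1) 1 h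
  simpa [signedPerm] using h2

theorem w_5_3 : W (5, 3) := by
  have h := W_of_good_index 152 fact_pass (Or.inl (by decide))
  have e : cellOf 152 = ((-5), 3) := by decide
  rw [e] at h
  have h2 := W_image false (-1) 1 h
  simpa [signedPerm] using h2

theorem w_5_4 : W (5, 4) := by
  have h := W_of_good_index 177 fact_pass (Or.inl (by decide))
  have e : cellOf 177 = (5, 4) := by decide
  rw [e] at h
  exact h

theorem w_5_5 : W (5, 5) := by
  have h := W_of_good_index 192 fact_pass (Or.inl (by decide))
  have e : cellOf 192 = (5, 5) := by decide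
  rw [e] at h
  exact h

theorem w_6_0 : W (6, 0) := by
  have h := W_of_good_index 106 fact_pass (Or.inl (by decide))
  have e : cellOf 106 = ((-6), 0) := by decide
  rw [e] at h
  have h2 := W_image false (-1) 1 h
  simpa [signedPerm] using h2

theorem w_6_1 : W (6, 1) := by
  have h := W_of_good_index 133 fact_pass (Or.inl (by decide))
  have e : cellOf 133 = (6, 1) := by decide
  rw [e] at h
  exact h

theorem w_6_2 : W (6, 2) := by
  have h := W_of_good_index 148 fact_pass (Or.inl (by decide))
  have e : cellOf 148 = (6, 2) := by decide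
  rw [e] at h
  exact h

theorem w_6_3 : W (6, 3) := by
  have h := W_of_good_index 163 fact_pass (Or.inl (by decide))
  have e : cellOf 163 = (6, 3) := by decide
  rw [e] at h
  exact h

theorem w_6_4 : W (6, 4) := by
  have h := W_of_good_index 178 fact_pass (Or.inl (by decide))
  have e : cellOf 178 = (6, 4) := by decide
  rw [e] at h
  exact h

theorem w_6_5 : W (6, 5) := by
  have h := W_of_good_index 193 fact_pass (Or.inl (by decide))
  have e : cellOf 193 = (6, 5) := by decide
  rw [e] at h
  exact h

theorem w_6_6 : W (6, 6) := by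
  have h := W_of_good_index 208 fact_pass (Or.inl (by decide))
  have e : cellOf 208 = (6, 6) := by decide
  rw [e] at h
  exact h

theorem w_7_0 : W (7, 0) := by
  have h := W_of_good_index 119 fact_pass (Or.inl (by decide))
  have e : cellOf 119 = (7, 0) := by decide
  rw [e] at h
  exact h

theorem w_7_1 : W (7, 1) := by
  have h := W_of_good_index 134 fact_pass (Or.inl (by decide))
  have e : cellOf 134 = (7, 1) := by decide
  rw [e] at h
  exact h

theorem w_7_2 : W (7, 2) := by
  have h := W_of_good_index 149 fact_pass (Or.inl (by decide))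
  have e : cellOf 149 = (7, 2) := by decide
  rw [e] at h
  exact h

theorem w_7_3 : W (7, 3) := by
  have h := W_of_good_index 164 fact_pass (Or.inl (by decide))
  have e : cellOf 164 = (7, 3) := by decide
  rw [e] at h
  exact h

theorem w_7_4 : W (7, 4) := by
  have h := W_of_good_index 179 fact_pass (Or.inl (by decide))
  have e : cellOf 179 = (7, 4) := by decide
  rw [e] at h
  exact h

theorem w_7_5 : W (7, 5) := by
  have h := W_of_good_index 194 fact_pass (Or.inl (by decide))
  have e : cellOf 194 = (7, 5) := by decide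
  rw [e] at h
  exact h

theorem w_7_6 : W (7, 6) := by
  have h := W_of_good_index 209 fact_pass (Or.inl (by decide))
  have e : cellOf 209 = (7, 6) := by decide
  rw [e] at h
  exact h

theorem w_7_7 : W (7, 7) := by
  have h := W_of_good_index 224 fact_pass (Or.inl (by decide))
  have e : cellOf 224 = (7, 7) := by decide
  rw [e] at h
  exact h

theorem w_2_0 : W (2, 0) := by
  have h := W_of_good_index 114 fact_r2_0 (Or.inl (by decide))
  have e : cellOf 114 = (2, 0) := by decide
  rw [e] at h
  exact h

theorem w_2_1 : W (2, 1) := by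
  have h := W_of_good_index 129 fact_r2_1 (Or.inl (by decide))
  have e : cellOf 129 = (2, 1) := by decide
  rw [e] at h
  exact h

/-- Canonical replies. -/
theorem canon_W (x y : ℤ) (h0 : 0 ≤ y) (h1 : y ≤ x) (hP : ¬ (x ≤ 1)) : W (x, y) := by
  by_cases hx : 8 ≤ x
  · exact W_of_good_far fact_pass (by decide) hx
  · have hx7 : x ≤ 7 := by omega
    have hx0 : 0 ≤ x := by omega
    interval_cases x <;> interval_cases y <;>
      first
      | (exfalso; omega)
      | exact w_2_2
      | exact w_3_0
      | exact w_3_1
      | exact w_3_2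
      | exact w_3_3
      | exact w_4_0
      | exact w_4_1
      | exact w_4_2
      | exact w_4_3
      | exact w_4_4
      | exact w_5_0
      | exact w_5_1
      | exact w_5_2
      | exact w_5_3
      | exact w_5_4
      | exact w_5_5
      | exact w_6_0
      | exact w_6_1
      | exact w_6_2
      | exact w_6_3
      | exact w_6_4
      | exact w_6_5
      | exact w_6_6
      | exact w_7_0
      | exact w_7_1
      | exact w_7_2
      | exact w_7_3
      | exact w_7_4
      | exact w_7_5
      | exact w_7_6
      | exact w_7_7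
      | exact w_2_0
      | exact w_2_1

/-- Every reply of Breaker outside the hard set loses. -/
theorem main_W : ∀ b : Cell, 2 ≤ |b.1| ∨ 2 ≤ |b.2| → MakerWins {(0, 0)} {b} := by
  rintro ⟨x, y⟩ hP
  refine W_of_canon (fun x y => 2 ≤ |x| ∨ 2 ≤ |y|) ?_ ?_ ?_ ?_ x y hP
  · intro x y h
    omega
  · intro x y h
    simpa only [abs_neg] using h
  · intro x y h
    simpa only [abs_neg] using h
  · intro x y h0 h1 h
    apply canon_W x y h0 h1
    have hx0 : 0 ≤ x := le_trans h0 h1
    simp only [abs_of_nonneg h0, abs_of_nonneg hx0] at h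
    omega

/-- The whole game reduces to the hard replies. -/
theorem full_of_hard (h10 : W (1, 0)) (h11 : W (1, 1)) : MakerWins ∅ ∅ := by
  refine MakerWins.move (0, 0) (by simp) (by simp) ?_
  intro b hb _
  have hb0 : b ≠ (0, 0) := by
    intro h
    apply hb
    simp [h]
  have key : W b := by
    obtain ⟨x, y⟩ := b
    have hne : ¬ (x = 0 ∧ y = 0) := by
      rintro ⟨rfl, rfl⟩
      exact hb0 rfl
    refine W_of_canon (fun x y => ¬ (x = 0 ∧ y = 0)) ?_ ?_ ?_ ?_ x y hne
    · intro x y h
      omega
    · intro x y h
      omega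
    · intro x y h
      omega
    · intro x y h0 h1 h
      by_cases hh : (x = 1 ∧ y = 0) ∨ (x = 1 ∧ y = 1)
      · rcases hh with ⟨rfl, rfl⟩ | ⟨rfl, rfl⟩
        · exact h10
        · exact h11
      · apply canon_W x y h0 h1
        omega
  simpa [W] using key

end Vale.Agent.Lib.P062.Thr
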