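import Vale.Agent.Lib.P062.Thr.Defs

/-!
The statement of the reduction of the Snaky game to a single position: forcing a win or a position
of a given family, and the position `T`.
-/

namespace Vale.Agent.Lib.P062.Thr

/-- `ForcesWinOr H M B`: with Maker to move in the position `(M, B)`, Maker can force, against every
legal play of Breaker and after finitely many turns, either an allowed copy or a position with Maker
to move that satisfies `H`. -/
inductive ForcesWinOr (H : Finset Cell → Finset Cell → Prop) : Finset Cell → Finset Cell → Prop
  | hole {M B : Finset Cell} (h : H M B) : ForcesWinOr H M B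
  | won {M B C : Finset Cell} (hC : IsCopy C) (h : C ⊆ M) : ForcesWinOr H M B
  | move {M B : Finset Cell} (m : Cell) (hmM : m ∉ M) (hmB : m ∉ B)
      (h : ∀ b : Cell, b ∉ insert m M → b ∉ B → ForcesWinOr H (insert m M) (insert b B)) :
      ForcesWinOr H M B

/-- Maker's cells in the position `T`: three cells in a row. -/
def TM : Finset Cell := {(0, 0), (-1, 0), (-2, 0)}

/-- Breaker's cells in the position `T`: both ends of the row and a neighbour of its middle cell. -/
def TB : Finset Cell := {(1, 0), (-3, 0), (-1, 1)}

/-- `(M, B)` is the image of the position `T` under a signed permutation of the plane. -/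
def IsT (M B : Finset Cell) : Prop :=
  ∃ (swap : Bool) (sx sy : ℤˣ),
    M = TM.image (signedPerm swap sx sy) ∧ B = TB.image (signedPerm swap sx sy)

end Vale.Agent.Lib.P062.Thr
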