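import Vale.Agent.Lib.P062.Thr.Sym
import Vale.Agent.Lib.P062.Thr.ReduceDefs

/-!
Forcing either a win or one of a given family of positions, and the check that a list of verified
facts handles every reply of Breaker at a node of the game.
-/

namespace Vale.Agent.Lib.P062.Thr

theorem ForcesWinOr.of_wins {H : Finset Cell → Finset Cell → Prop} {M B : Finset Cell}
    (h : MakerWins M B) : ForcesWinOr H M B := by
  induction h with
  | won hC h => exact ForcesWinOr.won hC h
  | move m hmM hmB _ ih => exact ForcesWinOr.move m hmM hmB ih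

theorem ForcesWinOr.to_wins {H : Finset Cell → Finset Cell → Prop}
    (hH : ∀ M B, H M B → MakerWins M B) {M B : Finset Cell}
    (h : ForcesWinOr H M B) : MakerWins M B := by
  induction h with
  | hole h => exact hH _ _ h
  | won hC h => exact MakerWins.won hC h
  | move m hmM hmB _ ih => exact MakerWins.move m hmM hmB ih

/-- The family `H` is invariant under the signed permutations. -/
def SymClosed (H : Finset Cell → Finset Cell → Prop) : Prop :=
  ∀ (swap : Bool) (sx sy : ℤˣ) (M B : Finset Cell), H M B →
    H (M.image (signedPerm swap sx sy)) (B.image (signedPerm swap sx sy))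

theorem ForcesWinOr.image {H : Finset Cell → Finset Cell → Prop} (hH : SymClosed H)
    (swap : Bool) (sx sy : ℤˣ) {M B : Finset Cell} (h : ForcesWinOr H M B) :
    ForcesWinOr H (M.image (signedPerm swap sx sy)) (B.image (signedPerm swap sx sy)) := by
  induction h with
  | hole h => exact ForcesWinOr.hole (hH swap sx sy _ _ h)
  | won hC h => exact ForcesWinOr.won (isCopy_image swap sx sy hC) (Finset.image_subset_image h)
  | @move M B m hmM hmB _ ih =>
    have hinj : Function.Injective (signedPerm swap sx sy) := (signedEquiv swap sx sy).injective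
    refine ForcesWinOr.move (signedPerm swap sx sy m) ?_ ?_ ?_
    · simpa [hinj.eq_iff] using hmM
    · simpa [hinj.eq_iff] using hmB
    · intro b hb1 hb2
      obtain ⟨b', rfl⟩ := (signedEquiv swap sx sy).surjective b
      have hb1' : b' ∉ insert m M := by
        intro hin
        apply hb1
        have : signedPerm swap sx sy b' ∈ (insert m M).image (signedPerm swap sx sy) :=
          Finset.mem_image_of_mem _ hin
        rwa [Finset.image_insert] at this
      have hb2' : b' ∉ B := by
        intro hin
        exact hb2 (Finset.mem_image_of_mem _ hin)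
      have := ih b' hb1' hb2'
      rwa [Finset.image_insert, Finset.image_insert] at this

/-- Reduction to canonical replies `0 ≤ y ≤ x`, for any family of replies closed under the
symmetries that fix the origin. -/
theorem canon_reduce (Q : Cell → Prop) (hswap : ∀ x y, Q (x, y) → Q (y, x))
    (hneg1 : ∀ x y, Q (x, y) → Q (-x, y)) (hneg2 : ∀ x y, Q (x, y) → Q (x, -y))
    (P : ℤ → ℤ → Prop) (hsym : ∀ x y, P x y → P y x)
    (hP1 : ∀ x y, P x y → P (-x) y) (hP2 : ∀ x y, P x y → P x (-y))
    (h : ∀ x y : ℤ, 0 ≤ y → y ≤ x → P x y → Q (x, y)) (x y : ℤ) (hP : P x y) : Q (x, y) := by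
  have key : ∀ x y : ℤ, 0 ≤ y → P x y → Q (x, y) := by
    intro x y hy hP
    rcases le_total 0 x with hx | hx
    · rcases le_total y x with hxy | hxy
      · exact h x y hy hxy hP
      · exact hswap _ _ (h y x hx hxy (hsym _ _ hP))
    · have hP' := hP1 _ _ hP
      have hn : 0 ≤ -x := by omega
      rcases le_total y (-x) with hxy | hxy
      · have := hneg1 _ _ (h (-x) y hy hxy hP')
        simpa using this
      · have := hneg1 _ _ (hswap _ _ (h y (-x) hn hxy (hsym _ _ hP')))
        simpa using this
  rcases le_total 0 y with hy | hy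
  · exact key x y hy hP
  · have := hneg2 _ _ (key x (-y) (by omega) (hP2 _ _ hP))
    simpa using this

/-- The finite set of window cells with the given indices. -/
def pos (l : List Nat) : Finset Cell := (l.map cellOf).toFinset

theorem pos_cons (i : Nat) (l : List Nat) : pos (i :: l) = insert (cellOf i) (pos l) := by
  simp [pos]

theorem mem_pos {l : List Nat} {i : Nat} : cellOf i ∈ pos l ↔ i ∈ l := by
  simp only [pos, List.mem_toFinset, List.mem_map]
  constructor
  · rintro ⟨j, hj, he⟩
    rwa [← cellOf_inj he]
  · intro h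
    exact ⟨i, h, rfl⟩

/-- The bit mask of a list of indices. -/
def maskOf : List Nat → Nat
  | [] => 0
  | i :: l => Nat.lor (bit i) (maskOf l)

theorem testBit_maskOf (l : List Nat) (j : Nat) : (maskOf l).testBit j = true ↔ j ∈ l := by
  induction l with
  | nil => simp [maskOf]
  | cons i l ih =>
    simp only [maskOf, testBit_lor, Bool.or_eq_true, testBit_bit, ih, List.mem_cons,
      decide_eq_true_eq]

/-- The fact `e` applies to the position with Maker's and Breaker's masks `mM`, `mB`. -/
def applies (e : Fact) (mM mB : Nat) : Bool :=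
  and (Nat.beq (Nat.land (Nat.land e.1 e.2.2) mM) (Nat.land e.1 e.2.2))
    (Nat.beq (Nat.land (Nat.land mB e.2.2) e.2.1) (Nat.land mB e.2.2))

theorem wins_of_applies {e : Fact} (g : Good e.1 e.2.1 e.2.2) {Mi Bi : List Nat}
    (h : applies e (maskOf Mi) (maskOf Bi) = true) : MakerWins (pos Mi) (pos Bi) := by
  unfold applies at h
  rw [Bool.and_eq_true] at h
  obtain ⟨h1, h2⟩ := h
  refine g _ _ ?_ ?_
  · intro i hz hm
    have h3 : (Nat.land e.1 e.2.2).testBit i = true := by
      rw [testBit_land, hm, hz]
      rfl
    exact mem_pos.mpr ((testBit_maskOf Mi i).mp (testBit_of_land_eq h1 h3))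
  · intro i hz hb
    have h3 : (Nat.land (maskOf Bi) e.2.2).testBit i = true := by
      rw [testBit_land, (testBit_maskOf Bi i).mpr (mem_pos.mp hb), hz]
      rfl
    exact testBit_of_land_eq h2 h3

/-- The check of a node: with the position `(Mi, Bi)` after Maker's move, every reply `i` in the
window that is not a hole is handled by a fact, and the fact `e0` handles every reply outside its
zone. -/
def nodeOK (facts : List Fact) (e0 : Fact) (Mi Bi holes : List Nat) : Bool :=
  and (applies e0 (maskOf Mi) (maskOf Bi))
    (and (Nat.blt e0.2.2 (2 ^ 225))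
      ((List.range 225).all (fun i =>
        or (or (Mi.contains i) (Bi.contains i))
          (or (holes.contains i)
            (facts.any (fun e => applies e (maskOf Mi) (maskOf (i :: Bi))))))))

theorem lt_of_testBit {Z i : Nat} (hZ : Z < 2 ^ 225) (hi : Z.testBit i = true) : i < 225 := by
  by_contra hc
  have h2 : Z < 2 ^ i := lt_of_lt_of_le hZ (Nat.pow_le_pow_right (by norm_num) (by omega))
  rw [Nat.testBit_lt_two_pow h2] at hi
  cases hi

/-- Soundness of the check of a node. -/
theorem node_sound {facts : List Fact} (hg : EnvGood facts) {e0 : Fact} (he0 : e0 ∈ facts)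
    {Mi Bi holes : List Nat} (h : nodeOK facts e0 Mi Bi holes = true)
    (b : Cell) (hbM : b ∉ pos Mi) (hbB : b ∉ pos Bi) (hbh : ∀ i ∈ holes, b ≠ cellOf i) :
    MakerWins (pos Mi) (insert b (pos Bi)) := by
  unfold nodeOK at h
  rw [Bool.and_eq_true, Bool.and_eq_true] at h
  obtain ⟨h0, hz, hc⟩ := h
  have hz' : e0.2.2 < 2 ^ 225 := by
    have := Nat.blt_eq ▸ hz
    simpa using this
  by_cases hb : ∃ i, i < 225 ∧ cellOf i = b
  · obtain ⟨i, hi, rfl⟩ := hb
    rw [List.all_eq_true] at hc
    have hci := hc i (List.mem_range.mpr hi)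
    simp only [Bool.or_eq_true, List.contains_iff_mem] at hci
    rcases hci with (h1 | h1) | (h1 | h1)
    · exact absurd (mem_pos.mpr h1) hbM
    · exact absurd (mem_pos.mpr h1) hbB
    · exact absurd rfl (hbh i h1)
    · rw [List.any_eq_true] at h1
      obtain ⟨e, he, hap⟩ := h1
      have := wins_of_applies (hg e he) hap
      rwa [pos_cons] at this
  · have hb' : ∀ i, i < 225 → cellOf i ≠ b := fun i hi he => hb ⟨i, hi, he⟩
    unfold applies at h0
    rw [Bool.and_eq_true] at h0
    obtain ⟨h1, h2⟩ := h0
    refine hg e0 he0 _ _ ?_ ?_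
    · intro i hzi hm
      have h3 : (Nat.land e0.1 e0.2.2).testBit i = true := by
        rw [testBit_land, hm, hzi]
        rfl
      exact mem_pos.mpr ((testBit_maskOf Mi i).mp (testBit_of_land_eq h1 h3))
    · intro i hzi hin
      rcases Finset.mem_insert.mp hin with he | hin
      · exact absurd he (hb' i (lt_of_testBit hz' hzi))
      · have h3 : (Nat.land (maskOf Bi) e0.2.2).testBit i = true := by
          rw [testBit_land, (testBit_maskOf Bi i).mpr (mem_pos.mp hin), hzi]
          rfl
        exact testBit_of_land_eq h2 h3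

/-- A move of Maker: all replies are handled by the facts except the holes, which are handled by
forcing statements. -/
theorem forces_move {H : Finset Cell → Finset Cell → Prop} {facts : List Fact} (hg : EnvGood facts)
    {e0 : Fact} (he0 : e0 ∈ facts) (m : Nat) {Mi Bi holes : List Nat}
    (hm1 : m ∉ Mi) (hm2 : m ∉ Bi)
    (h : nodeOK facts e0 (m :: Mi) Bi holes = true)
    (hh : ∀ i ∈ holes, i ∉ m :: Mi → i ∉ Bi → ForcesWinOr H (pos (m :: Mi)) (pos (i :: Bi))) :
    ForcesWinOr H (pos Mi) (pos Bi) := by
  refine ForcesWinOr.move (cellOf m) (fun hc => hm1 (mem_pos.mp hc)) (fun hc => hm2 (mem_pos.mp hc)) ?_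
  intro b h1 h2
  rw [← pos_cons] at h1 ⊢
  by_cases hb : ∃ i ∈ holes, b = cellOf i
  · obtain ⟨i, hi, rfl⟩ := hb
    have := hh i hi (fun hc => h1 (mem_pos.mpr hc)) (fun hc => h2 (mem_pos.mpr hc))
    rwa [pos_cons i] at this
  · refine ForcesWinOr.of_wins (node_sound hg he0 h b h1 h2 ?_)
    intro i hi he
    exact hb ⟨i, hi, he⟩

/-- A move of Maker with no holes. -/
theorem wins_move {facts : List Fact} (hg : EnvGood facts)
    {e0 : Fact} (he0 : e0 ∈ facts) (m : Nat) {Mi Bi : List Nat}
    (hm1 : m ∉ Mi) (hm2 : m ∉ Bi)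
    (h : nodeOK facts e0 (m :: Mi) Bi [] = true) :
    MakerWins (pos Mi) (pos Bi) := by
  refine MakerWins.move (cellOf m) (fun hc => hm1 (mem_pos.mp hc)) (fun hc => hm2 (mem_pos.mp hc)) ?_
  intro b h1 h2
  rw [← pos_cons] at h1 ⊢
  exact node_sound hg he0 h b h1 h2 (by simp)

end Vale.Agent.Lib.P062.Thr
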