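import Vale.Agent.Lib.P062.Thr.Hole
import Vale.Agent.Lib.P062.Thr.NData.N1
import Vale.Agent.Lib.P062.Thr.NData.N2
import Vale.Agent.Lib.P062.Thr.NData.N4

namespace Vale.Agent.Lib.P062.Thr

/-- The facts used at the node after the fourth move. -/
def factsN : List Fact := [FN_65, FN_781, FN_3913, FN_4214, FN_4470, FN_4669, FN_4834, FN_4857, FN_4867, FN_4882, FN_5198, FN_5437, FN_5455, FN_5466, FN_5558, FN_5674, FN_5723, FN_5762]
theorem envN : EnvGood factsN := envGood_cons GN_65 (envGood_cons GN_781 (envGood_cons GN_3913 (envGood_cons GN_4214 (envGood_cons GN_4470 (envGood_cons GN_4669 (envGood_cons GN_4834 (envGood_cons GN_4857 (envGood_cons GN_4867 (envGood_cons GN_4882 (envGood_cons GN_5198 (envGood_cons GN_5437 (envGood_cons GN_5455 (envGood_cons GN_5466 (envGood_cons GN_5558 (envGood_cons GN_5674 (envGood_cons GN_5723 (envGood_cons GN_5762 envGood_nil)))))))))))))))))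
def passN : Fact := FN_65
theorem passN_mem : passN ∈ factsN := by
  simp [passN, factsN]
theorem nodeN : nodeOK factsN passN [81, 110, 111, 112] [109, 126, 113] [96, 66, 82] = true := by
  decide +kernel

theorem wins_D : MakerWins (pos [81, 110, 111, 112]) (pos [80, 109, 126, 113]) :=
  wins_of_applies GN_3913 (by decide +kernel)

end Vale.Agent.Lib.P062.Thr
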