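import Vale.Agent.Lib.P062.Thr.Hole
import Vale.Agent.Lib.P062.Thr.RData.R0
import Vale.Agent.Lib.P062.Thr.RData.R1
import Vale.Agent.Lib.P062.Thr.RData.R3
import Vale.Agent.Lib.P062.Thr.RData.R4
import Vale.Agent.Lib.P062.Thr.RData.R5
import Vale.Agent.Lib.P062.Thr.RData.R6
import Vale.Agent.Lib.P062.Thr.RData.R7

namespace Vale.Agent.Lib.P062.Thr

/-- The facts used at the node Y2. -/
def factsY2 : List Fact := [FR_25, FR_512, FR_518, FR_922, FR_1532, FR_2140]
theorem envY2 : EnvGood factsY2 := envGood_cons GR_25 (envGood_cons GR_512 (envGood_cons GR_518 (envGood_cons GR_922 (envGood_cons GR_1532 (envGood_cons GR_2140 envGood_nil)))))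
def passY2 : Fact := FR_25
theorem passY2_mem : passY2 ∈ factsY2 := by
  simp [passY2, factsY2]
theorem nodeY2 : nodeOK factsY2 passY2 [109, 110, 111, 112] [96, 126, 113] [] = true := by
  decide +kernel

/-- The facts used at the node P2. -/
def factsP2 : List Fact := [FR_2156, FR_2157, FR_2201, FR_2554, FR_2567, FR_2577, FR_2882, FR_2916, FR_2925, FR_2944, FR_2946, FR_2982, FR_3057, FR_3907]
theorem envP2 : EnvGood factsP2 := envGood_cons GR_2156 (envGood_cons GR_2157 (envGood_cons GR_2201 (envGood_cons GR_2554 (envGood_cons GR_2567 (envGood_cons GR_2577 (envGood_cons GR_2882 (envGood_cons GR_2916 (envGood_cons GR_2925 (envGood_cons GR_2944 (envGood_cons GR_2946 (envGood_cons GR_2982 (envGood_cons GR_3057 (envGood_cons GR_3907 envGood_nil)))))))))))))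
def passP2 : Fact := FR_2156
theorem passP2_mem : passP2 ∈ factsP2 := by
  simp [passP2, factsP2]
theorem nodeP2 : nodeOK factsP2 passP2 [110, 111, 112] [126, 113] [109, 96] = true := by
  decide +kernel

/-- The facts used at the node A1. -/
def factsA1 : List Fact := [FR_4445, FR_4494, FR_4505, FR_4540, FR_4559, FR_4586, FR_5028, FR_5670, FR_5680, FR_6379, FR_6452, FR_6676, FR_6865, FR_7216, FR_7450, FR_7457, FR_7684, FR_7796, FR_8454, FR_9246, FR_10056, FR_10669, FR_10791, FR_11168, FR_11808, FR_12815, FR_13695, FR_13880, FR_14727, FR_15559, FR_16354, FR_16833, FR_16942, FR_17405, FR_17857, FR_19891, FR_21360]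
theorem envA1 : EnvGood factsA1 := envGood_cons GR_4445 (envGood_cons GR_4494 (envGood_cons GR_4505 (envGood_cons GR_4540 (envGood_cons GR_4559 (envGood_cons GR_4586 (envGood_cons GR_5028 (envGood_cons GR_5670 (envGood_cons GR_5680 (envGood_cons GR_6379 (envGood_cons GR_6452 (envGood_cons GR_6676 (envGood_cons GR_6865 (envGood_cons GR_7216 (envGood_cons GR_7450 (envGood_cons GR_7457 (envGood_cons GR_7684 (envGood_cons GR_7796 (envGood_cons GR_8454 (envGood_cons GR_9246 (envGood_cons GR_10056 (envGood_cons GR_10669 (envGood_cons GR_10791 (envGood_cons GR_11168 (envGood_cons GR_11808 (envGood_cons GR_12815 (envGood_cons GR_13695 (envGood_cons GR_13880 (envGood_cons GR_14727 (envGood_cons GR_15559 (envGood_cons GR_16354 (envGood_cons GR_16833 (envGood_cons GR_16942 (envGood_cons GR_17405 (envGood_cons GR_17857 (envGood_cons GR_19891 (envGood_cons GR_21360 envGood_nil))))))))))))))))))))))))))))))))))))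
def passA1 : Fact := FR_4445
theorem passA1_mem : passA1 ∈ factsA1 := by
  simp [passA1, factsA1]
theorem nodeA1 : nodeOK factsA1 passA1 [111, 112] [113] [96, 126] = true := by
  decide +kernel

end Vale.Agent.Lib.P062.Thr
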