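import Vale.Agent.Lib.P062.Thr.Sym

import Vale.Agent.Lib.P062.Certs.Cert_r1_1

/-!
The certificate for the first reply at the diagonal neighbour, read as a forced win.
-/

namespace Vale.Agent.Lib.P062.Thr

/-- A set owning a copy in the sense of `OwnsCopy` contains a copy in the sense of `IsCopy`. -/
theorem exists_isCopy_of_owns {A : Finset Cell}
    (h : Vale.Agent.Lib.P062.OwnsCopy (↑A : Set Cell)) : ∃ C, IsCopy C ∧ C ⊆ A := by
  obtain ⟨t, swap, sx, sy, hx, hy, hp⟩ := h
  have hsx : IsUnit sx := by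
    rcases hx with rfl | rfl <;> simp
  have hsy : IsUnit sy := by
    rcases hy with rfl | rfl <;> simp
  obtain ⟨ux, rfl⟩ := hsx
  obtain ⟨uy, rfl⟩ := hsy
  refine ⟨snaky.image (fun c => t + signedPerm swap ux uy c), ⟨t, swap, ux, uy, rfl⟩, ?_⟩
  intro c hc
  obtain ⟨p, hp1, rfl⟩ := Finset.mem_image.mp hc
  have hp1' : p ∈ Vale.Agent.Lib.P062.snaky := by
    simpa [Vale.Agent.Lib.P062.snaky, snaky] using hp1
  have := hp p hp1'
  simpa [Vale.Agent.Lib.P062.orient, signedPerm] using this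

/-- Depth bounded forcing is a forced win. -/
theorem wins_of_forcesIn : ∀ {d : ℕ} {M B : Finset Cell}, Vale.Agent.Lib.P062.ForcesIn d M B →
    MakerWins M B
  | 0, _, _, h => h.elim
  | d + 1, M, B, h => by
    obtain ⟨c, hcM, hcB, hwin⟩ := h
    refine MakerWins.move c hcM hcB ?_
    intro r h1 h2
    rcases hwin with hw | hw
    · have hw' : Vale.Agent.Lib.P062.OwnsCopy (↑(insert c M) : Set Cell) := hw
      obtain ⟨C, hC, hs⟩ := exists_isCopy_of_owns hw'
      exact MakerWins.won hC hs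
    · exact wins_of_forcesIn (hw r h1 h2)

/-- The first reply at the diagonal neighbour loses. -/
theorem w11 : W (1, 1) := by
  obtain ⟨d, hd⟩ := Vale.Agent.Lib.P062.r1_1_ok
  have h := hd ∅ (by simp)
  have h1 : Vale.Agent.Lib.P062.toF (1 <<< 112) = {((0, 0) : Cell)} := by
    have h' := Vale.Agent.Lib.P062.toF_add (m := 0) (c := 112) (by omega)
    have h0 : Vale.Agent.Lib.P062.toF 0 = ∅ := by
      ext x
      simp [Vale.Agent.Lib.P062.mem_toF]
    rw [h0] at h'
    simpa [Vale.Agent.Lib.P062.cellOf] using h'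
  have h2 : Vale.Agent.Lib.P062.toF (1 <<< 128) = {((1, 1) : Cell)} := by
    have h' := Vale.Agent.Lib.P062.toF_add (m := 0) (c := 128) (by omega)
    have h0 : Vale.Agent.Lib.P062.toF 0 = ∅ := by
      ext x
      simp [Vale.Agent.Lib.P062.mem_toF]
    rw [h0] at h'
    simpa [Vale.Agent.Lib.P062.cellOf] using h'
  rw [h1, Finset.union_empty, h2] at h
  exact wins_of_forcesIn h

end Vale.Agent.Lib.P062.Thr
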