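import Vale.Agent.Lib.P062.Thr.RNodes
import Vale.Agent.Lib.P062.Thr.Final
import Vale.Agent.Lib.P062.Thr.W11
import Vale.Agent.Lib.P062.Thr.Bridge

/-!
The reduction of the Snaky game on the plane to a single position.
-/

namespace Vale.Agent.Lib.P062.Thr

theorem isT_closed : SymClosed IsT := by
  rintro swap sx sy M B ⟨s, a, b, rfl, rfl⟩
  obtain ⟨s', a', b', hc⟩ := signedPerm_comp swap sx sy s a b
  refine ⟨s', a', b', ?_, ?_⟩
  · rw [Finset.image_image]
    apply Finset.image_congr
    intro c _
    simp [hc]
  · rw [Finset.image_image]
    apply Finset.image_congr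
    intro c _
    simp [hc]

theorem isT_wins (h : MakerWins TM TB) : ∀ M B, IsT M B → MakerWins M B := by
  rintro M B ⟨s, a, b, rfl, rfl⟩
  exact MakerWins.image s a b h

theorem y2 : MakerWins (pos [110, 111, 112]) (pos [96, 126, 113]) :=
  wins_move envY2 passY2_mem 109 (by decide) (by decide) nodeY2

theorem image_id_eq (S : Finset Cell) : S.image (signedPerm false 1 1) = S := by
  have : signedPerm false 1 1 = id := by
    funext c
    simp [signedPerm]
  rw [this, Finset.image_id]

theorem p2 : ForcesWinOr IsT (pos [111, 112]) (pos [126, 113]) := by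
  refine forces_move (holes := [109, 96]) envP2 passP2_mem 110 (by decide) (by decide) nodeP2 ?_
  intro i hi _ _
  simp only [List.mem_cons, List.not_mem_nil, or_false] at hi
  rcases hi with rfl | rfl
  · refine ForcesWinOr.hole ⟨false, 1, 1, ?_, ?_⟩
    · rw [image_id_eq]
      decide
    · rw [image_id_eq]
      decide
  · exact ForcesWinOr.of_wins y2

theorem a1 : ForcesWinOr IsT (pos [112]) (pos [113]) := by
  refine forces_move (holes := [96, 126]) envA1 passA1_mem 111 (by decide) (by decide) nodeA1 ?_
  intro i hi _ _
  simp only [List.mem_cons, List.not_mem_nil, or_false] at hi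
  rcases hi with rfl | rfl
  · have h := ForcesWinOr.image isT_closed false 1 (-1) p2
    have e1 : (pos [111, 112]).image (signedPerm false 1 (-1)) = pos [111, 112] := by
      simp [pos, cellOf, signedPerm]
    have e2 : (pos [126, 113]).image (signedPerm false 1 (-1)) = pos [96, 113] := by
      simp [pos, cellOf, signedPerm]
    rwa [e1, e2] at h
  · exact p2

/-- From the empty board Maker can force a win or the position `T`, up to the symmetries. -/
theorem forces_root : ForcesWinOr IsT ∅ ∅ := by
  refine ForcesWinOr.move (0, 0) (by simp) (by simp) ?_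
  intro b hb _
  have hb0 : b ≠ (0, 0) := by
    intro h
    apply hb
    simp [h]
  have key : ForcesWinOr IsT {(0, 0)} {b} := by
    obtain ⟨x, y⟩ := b
    have hne : ¬ (x = 0 ∧ y = 0) := by
      rintro ⟨rfl, rfl⟩
      exact hb0 rfl
    refine canon_reduce (fun c => ForcesWinOr IsT {(0, 0)} {c}) ?_ ?_ ?_
      (fun x y => ¬ (x = 0 ∧ y = 0)) ?_ ?_ ?_ ?_ x y hne
    · intro x y h
      have := ForcesWinOr.image isT_closed true 1 1 h
      simpa [signedPerm] using this
    · intro x y h
      have := ForcesWinOr.image isT_closed false (-1) 1 h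
      simpa [signedPerm] using this
    · intro x y h
      have := ForcesWinOr.image isT_closed false 1 (-1) h
      simpa [signedPerm] using this
    · intro x y h
      omega
    · intro x y h
      omega
    · intro x y h
      omega
    · intro x y h0 h1 h
      by_cases hh : (x = 1 ∧ y = 0) ∨ (x = 1 ∧ y = 1)
      · rcases hh with ⟨rfl, rfl⟩ | ⟨rfl, rfl⟩
        · have e1 : pos [112] = {(0, 0)} := by
            simp [pos, cellOf]
          have e2 : pos [113] = {(1, 0)} := by
            simp [pos, cellOf]
          have := a1
          rwa [e1, e2] at this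
        · exact ForcesWinOr.of_wins w11
      · exact ForcesWinOr.of_wins (canon_W x y h0 h1 (by omega))
  simpa using key

/-- If Maker wins from the position `T`, then Maker wins the whole game. -/
theorem strategy_of_T (h : MakerWins TM TB) : Vale.Agent.Lib.P062.MakerHasWinningStrategy :=
  hasWinningStrategy_of_makerWins (ForcesWinOr.to_wins (isT_wins h) forces_root)

end Vale.Agent.Lib.P062.Thr
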