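import Vale.Agent.Lib.P062.Thr.ReduceDefs

/-!
The two positions that remain after Maker's fourth move in the position `T`.
-/

namespace Vale.Agent.Lib.P062.Thr

/-- Maker's cells in both positions: the cells of `T` and the cell `(-1, -2)`. -/
def AM : Finset Cell := {(0, 0), (-1, 0), (-2, 0), (-1, -2)}

/-- Breaker's cells in the first position: the cells of `T` and the cell `(-1, -1)`. -/
def AB1 : Finset Cell := {(1, 0), (-3, 0), (-1, 1), (-1, -1)}

/-- Breaker's cells in the second position: the cells of `T` and the cell `(-1, -3)`. -/
def AB2 : Finset Cell := {(1, 0), (-3, 0), (-1, 1), (-1, -3)}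

/-- `(M, B)` is the image of one of the two positions under a signed permutation of the plane. -/
def IsAB (M B : Finset Cell) : Prop :=
  ∃ (swap : Bool) (sx sy : ℤˣ), M = AM.image (signedPerm swap sx sy) ∧
    (B = AB1.image (signedPerm swap sx sy) ∨ B = AB2.image (signedPerm swap sx sy))

end Vale.Agent.Lib.P062.Thr
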