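import Vale.Agent.Lib.P062.Thr.Reduce
import Vale.Agent.Lib.P062.Thr.Reduce2Defs
import Vale.Agent.Lib.P062.Thr.NTop

/-!
The reduction of the Snaky game on the plane to two positions with four cells of each player.
-/

namespace Vale.Agent.Lib.P062.Thr

theorem isAB_closed : SymClosed IsAB := by
  rintro swap sx sy M B ⟨s, a, b, rfl, hB⟩
  obtain ⟨s', a', b', hc⟩ := signedPerm_comp swap sx sy s a b
  have key : ∀ S : Finset Cell, (S.image (signedPerm s a b)).image (signedPerm swap sx sy) =
      S.image (signedPerm s' a' b') := by
    intro S
    rw [Finset.image_image]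
    apply Finset.image_congr
    intro c _
    simp [hc]
  refine ⟨s', a', b', key _, ?_⟩
  rcases hB with rfl | rfl
  · exact Or.inl (key _)
  · exact Or.inr (key _)

theorem isAB_wins (h1 : MakerWins AM AB1) (h2 : MakerWins AM AB2) :
    ∀ M B, IsAB M B → MakerWins M B := by
  rintro M B ⟨s, a, b, rfl, rfl | rfl⟩
  · exact MakerWins.image s a b h1
  · exact MakerWins.image s a b h2

theorem ForcesWinOr.trans {H1 H2 : Finset Cell → Finset Cell → Prop}
    (hH : ∀ M B, H1 M B → ForcesWinOr H2 M B) {M B : Finset Cell}
    (h : ForcesWinOr H1 M B) : ForcesWinOr H2 M B := by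
  induction h with
  | hole h => exact hH _ _ h
  | won hC h => exact ForcesWinOr.won hC h
  | move m hmM hmB _ ih => exact ForcesWinOr.move m hmM hmB ih

/-- Translations preserve allowed copies. -/
theorem isCopy_translate (t : Cell) {C : Finset Cell} (h : IsCopy C) :
    IsCopy (C.image (fun c => t + c)) := by
  obtain ⟨t0, s, a, b, rfl⟩ := h
  refine ⟨t + t0, s, a, b, ?_⟩
  rw [Finset.image_image]
  apply Finset.image_congr
  intro c _
  simp [add_assoc]

/-- The game is invariant under translations. -/
theorem MakerWins.translate (t : Cell) {M B : Finset Cell} (h : MakerWins M B) :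
    MakerWins (M.image (fun c => t + c)) (B.image (fun c => t + c)) := by
  induction h with
  | won hC h => exact MakerWins.won (isCopy_translate t hC) (Finset.image_subset_image h)
  | @move M B m hmM hmB _ ih =>
    have hinj : Function.Injective (fun c : Cell => t + c) := add_right_injective t
    refine MakerWins.move (t + m) ?_ ?_ ?_
    · simpa [hinj.eq_iff] using hmM
    · simpa [hinj.eq_iff] using hmB
    · intro b hb1 hb2
      have hb1' : (-t + b) ∉ insert m M := by
        intro hin
        apply hb1
        have : t + (-t + b) ∈ (insert m M).image (fun c => t + c) :=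
          Finset.mem_image_of_mem _ hin
        rw [Finset.image_insert] at this
        simpa using this
      have hb2' : (-t + b) ∉ B := by
        intro hin
        apply hb2
        have : t + (-t + b) ∈ B.image (fun c => t + c) :=
          Finset.mem_image_of_mem (fun c => t + c) hin
        simpa using this
      have := ih (-t + b) hb1' hb2'
      rw [Finset.image_insert, Finset.image_insert] at this
      simpa using this

/-- The reply `(0, -2)` is the mirror image of the reply `(-2, -2)`. -/
theorem wins_D_mirror : MakerWins (pos [81, 110, 111, 112]) (pos [82, 109, 126, 113]) := by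
  have h := MakerWins.translate (-2, 0) (MakerWins.image false (-1) 1 wins_D)
  have e1 : ((pos [81, 110, 111, 112]).image (signedPerm false (-1) 1)).image
      (fun c => ((-2, 0) : Cell) + c) = pos [81, 110, 111, 112] := by
    simp [pos, cellOf, signedPerm]
    decide
  have e2 : ((pos [80, 109, 126, 113]).image (signedPerm false (-1) 1)).image
      (fun c => ((-2, 0) : Cell) + c) = pos [82, 109, 126, 113] := by
    simp [pos, cellOf, signedPerm]
    decide
  rwa [e1, e2] at h

theorem t_node : ForcesWinOr IsAB (pos [110, 111, 112]) (pos [109, 126, 113]) := by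
  refine forces_move (holes := [96, 66, 82]) envN passN_mem 81 (by decide) (by decide) nodeN ?_
  intro i hi _ _
  simp only [List.mem_cons, List.not_mem_nil, or_false] at hi
  rcases hi with rfl | rfl | rfl
  · refine ForcesWinOr.hole ⟨false, 1, 1, ?_, Or.inl ?_⟩
    · rw [image_id_eq]
      decide
    · rw [image_id_eq]
      decide
  · refine ForcesWinOr.hole ⟨false, 1, 1, ?_, Or.inr ?_⟩
    · rw [image_id_eq]
      decide
    · rw [image_id_eq]
      decide
  · exact ForcesWinOr.of_wins wins_D_mirror

/-- From the empty board Maker can force a win or one of the two positions, up to the symmetries. -/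
theorem forces_root2 : ForcesWinOr IsAB ∅ ∅ := by
  refine ForcesWinOr.trans ?_ forces_root
  rintro M B ⟨s, a, b, rfl, rfl⟩
  have e1 : pos [110, 111, 112] = TM := by decide
  have e2 : pos [109, 126, 113] = TB := by decide
  have h := t_node
  rw [e1, e2] at h
  have isAB' : SymClosed IsAB := isAB_closed
  exact ForcesWinOr.image isAB' s a b h

/-- If Maker wins from both positions, then Maker wins the whole game. -/
theorem strategy_of_AB (h1 : MakerWins AM AB1) (h2 : MakerWins AM AB2) :
    Vale.Agent.Lib.P062.MakerHasWinningStrategy :=
  hasWinningStrategy_of_makerWins (ForcesWinOr.to_wins (isAB_wins h1 h2) forces_root2)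

end Vale.Agent.Lib.P062.Thr
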