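import Vale.Agent.Lib.P062.Thr.Core
import Mathlib.Data.Int.Order.Units

/-!
The symmetries of the game, and the reduction of a first reply of Breaker to a canonical one.
-/

namespace Vale.Agent.Lib.P062.Thr

/-- A signed permutation as an equivalence of the plane. -/
def signedEquiv (swap : Bool) (sx sy : ℤˣ) : Cell ≃ Cell where
  toFun := signedPerm swap sx sy
  invFun := if swap then signedPerm true sy sx else signedPerm false sx sy
  left_inv := by
    intro c
    cases swap
    · simp only [signedPerm, if_false, Bool.false_eq_true]
      ext <;> simp [← mul_assoc, ← Units.val_mul, Int.units_mul_self]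
    · simp only [signedPerm, if_true]
      ext <;> simp [← mul_assoc, ← Units.val_mul, Int.units_mul_self]
  right_inv := by
    intro c
    cases swap
    · simp only [signedPerm, if_false, Bool.false_eq_true]
      ext <;> simp [← mul_assoc, ← Units.val_mul, Int.units_mul_self]
    · simp only [signedPerm, if_true]
      ext <;> simp [← mul_assoc, ← Units.val_mul, Int.units_mul_self]

theorem signedPerm_add (swap : Bool) (sx sy : ℤˣ) (a b : Cell) :
    signedPerm swap sx sy (a + b) = signedPerm swap sx sy a + signedPerm swap sx sy b := by
  cases swap <;> simp [signedPerm, mul_add]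

theorem signedPerm_comp (s1 : Bool) (a1 b1 : ℤˣ) (s2 : Bool) (a2 b2 : ℤˣ) :
    ∃ (s : Bool) (a b : ℤˣ), ∀ c, signedPerm s1 a1 b1 (signedPerm s2 a2 b2 c) = signedPerm s a b c := by
  cases s1 <;> cases s2
  · refine ⟨false, a1 * a2, b1 * b2, fun c => ?_⟩
    simp [signedPerm, mul_assoc]
  · refine ⟨true, a1 * a2, b1 * b2, fun c => ?_⟩
    simp [signedPerm, mul_assoc]
  · refine ⟨true, a1 * b2, b1 * a2, fun c => ?_⟩
    simp [signedPerm, mul_assoc]
  · refine ⟨false, a1 * b2, b1 * a2, fun c => ?_⟩
    simp [signedPerm, mul_assoc]

theorem isCopy_image (swap : Bool) (sx sy : ℤˣ) {C : Finset Cell} (h : IsCopy C) :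
    IsCopy (C.image (signedPerm swap sx sy)) := by
  obtain ⟨t, s2, a2, b2, rfl⟩ := h
  obtain ⟨s, a, b, hc⟩ := signedPerm_comp swap sx sy s2 a2 b2
  refine ⟨signedPerm swap sx sy t, s, a, b, ?_⟩
  rw [Finset.image_image]
  apply Finset.image_congr
  intro c _
  simp only [Function.comp, signedPerm_add, hc]

/-- The game is invariant under the signed permutations. -/
theorem MakerWins.image (swap : Bool) (sx sy : ℤˣ) {M B : Finset Cell} (h : MakerWins M B) :
    MakerWins (M.image (signedPerm swap sx sy)) (B.image (signedPerm swap sx sy)) := by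
  induction h with
  | won hC h => exact MakerWins.won (isCopy_image swap sx sy hC) (Finset.image_subset_image h)
  | @move M B m hmM hmB _ ih =>
    have hinj : Function.Injective (signedPerm swap sx sy) := (signedEquiv swap sx sy).injective
    refine MakerWins.move (signedPerm swap sx sy m) ?_ ?_ ?_
    · simpa [hinj.eq_iff] using hmM
    · simpa [hinj.eq_iff] using hmB
    · intro b hb1 hb2
      obtain ⟨b', rfl⟩ := (signedEquiv swap sx sy).surjective b
      have hb1' : b' ∉ insert m M := by
        intro hin
        apply hb1
        have : signedPerm swap sx sy b' ∈ (insert m M).image (signedPerm swap sx sy) :=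
          Finset.mem_image_of_mem _ hin
        rwa [Finset.image_insert] at this
      have hb2' : b' ∉ B := by
        intro hin
        exact hb2 (Finset.mem_image_of_mem _ hin)
      have := ih b' hb1' hb2'
      rwa [Finset.image_insert, Finset.image_insert] at this

/-- The position after Maker claimed the origin and Breaker claimed `b` is a win for Maker. -/
def W (b : Cell) : Prop := MakerWins {(0, 0)} {b}

theorem W_image (swap : Bool) (sx sy : ℤˣ) {b : Cell} (h : W b) : W (signedPerm swap sx sy b) := by
  have := MakerWins.image swap sx sy h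
  simp only [Finset.image_singleton] at this
  have h0 : signedPerm swap sx sy (0, 0) = (0, 0) := by
    cases swap <;> simp [signedPerm]
  rw [h0] at this
  exact this

theorem W_swap {x y : ℤ} (h : W (x, y)) : W (y, x) := by
  have := W_image true 1 1 h
  simpa [signedPerm] using this

theorem W_neg_left {x y : ℤ} (h : W (x, y)) : W (-x, y) := by
  have := W_image false (-1) 1 h
  simpa [signedPerm] using this

theorem W_neg_right {x y : ℤ} (h : W (x, y)) : W (x, -y) := by
  have := W_image false 1 (-1) h
  simpa [signedPerm] using this

/-- Reduction to canonical replies `0 ≤ y ≤ x`. -/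
theorem W_of_canon (P : ℤ → ℤ → Prop) (hsym : ∀ x y, P x y → P y x)
    (hneg1 : ∀ x y, P x y → P (-x) y) (hneg2 : ∀ x y, P x y → P x (-y))
    (h : ∀ x y : ℤ, 0 ≤ y → y ≤ x → P x y → W (x, y)) (x y : ℤ) (hP : P x y) : W (x, y) := by
  have key : ∀ x y : ℤ, 0 ≤ y → P x y → W (x, y) := by
    intro x y hy hP
    rcases le_total 0 x with hx | hx
    · rcases le_total y x with hxy | hxy
      · exact h x y hy hxy hP
      · exact W_swap (h y x hx hxy (hsym _ _ hP))
    · have hP' := hneg1 _ _ hP
      have hn : 0 ≤ -x := by omega
      rcases le_total y (-x) with hxy | hxy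
      · have := W_neg_left (h (-x) y hy hxy hP')
        simpa using this
      · have := W_neg_left (W_swap (h y (-x) hn hxy (hsym _ _ hP')))
        simpa using this
  rcases le_total 0 y with hy | hy
  · exact key x y hy hP
  · have := W_neg_right (key x (-y) (by omega) (hneg2 _ _ hP))
    simpa using this

/-- Using a fact: Maker with the origin against a Breaker cell outside the fact's zone or inside
Breaker's cells of the fact. -/
theorem W_of_good {B Z : Nat} {b : Cell} (g : Good (bit 112) B Z)
    (hb : ∀ i, Z.testBit i = true → cellOf i = b → B.testBit i = true) : W b := by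
  refine g _ _ ?_ ?_
  · intro i _ hi
    rw [testBit_bit] at hi
    have : i = 112 := by simpa using hi
    subst this
    simp [cellOf]
  · intro i hi hin
    exact hb i hi (by simpa using hin)

theorem W_of_good_index {B Z : Nat} (j : Nat) (g : Good (bit 112) B Z)
    (hj : Z.testBit j = false ∨ B.testBit j = true) : W (cellOf j) := by
  refine W_of_good g ?_
  intro i hi h
  have := cellOf_inj h
  subst this
  rcases hj with hj | hj
  · rw [hi] at hj
    cases hj
  · exact hj

/-- A reply outside the window is outside every zone `Z < 2 ^ 225`. -/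
theorem W_of_good_far {B Z : Nat} {b : Cell} (g : Good (bit 112) B Z) (hZ : Z < 2 ^ 225)
    (hb : 8 ≤ b.1) : W b := by
  refine W_of_good g ?_
  intro i hi h
  exfalso
  have hi' : i < 225 := by
    by_contra hc
    have h2 : Z < 2 ^ i := lt_of_lt_of_le hZ (Nat.pow_le_pow_right (by norm_num) (by omega))
    rw [Nat.testBit_lt_two_pow h2] at hi
    cases hi
  have h1 : b.1 = ((i % 15 : Nat) : ℤ) - 7 := by
    rw [← h]
    rfl
  omega

end Vale.Agent.Lib.P062.Thr
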